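import Vale.Agent.P154.Q4.CertR

/-!
# P154, four colours, binary tree: both merged experiments are messages

On the binary tree the experiment at a vertex is the combination of exactly two messages `lam * f`, and a message of a subtree in the class `ps4 k`
is in the stronger class `ps4 (k / lam0)`.  So the pointwise inequalities are needed only on `lam0 T × lam0 T`, with `ps4 (k / lam0)` for BOTH
arguments on the multiplier side (`Pt4B`).
-/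

namespace Vale.Agent.P154

open Finset Filter Topology

variable {q : ℕ}

/-- one piece -/
theorem EQ_prodQ_one (hq : 0 < q) {F : Fin 1 → Type} [∀ j, Fintype (F j)] (W : ∀ j, F j → ℝ)
    (E : ∀ j, F j → Fin q → ℝ) (hz : ∀ ξ, ∑ i, E 0 ξ i = 0) (G : (Fin q → ℝ) → ℝ) :
    EQ (wDQ W E) (eDQ E) G = EQ (W 0) (E 0) G := by
  have hq' : (q : ℝ) ≠ 0 := by positivity
  have hs : ∀ η : ∀ j, F j, sDQ E η = 1 := by
    intro η
    unfold sDQ
    simp only [Fin.prod_univ_one]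
    rw [Finset.sum_add_distrib, hz (η 0)]
    simp [hq']
  have hw : ∀ η : ∀ j, F j, wDQ W E η = W 0 (η 0) := by
    intro η
    unfold wDQ
    rw [hs]
    simp
  have he : ∀ η : ∀ j, F j, eDQ E η = E 0 (η 0) := by
    intro η
    funext i
    unfold eDQ
    rw [hs]
    simp
  unfold EQ
  simp only [hw, he]
  exact Fintype.sum_equiv (Equiv.piUnique F) _ _ (fun η => rfl)

/-- two pieces: the combination of the two experiments -/
theorem EQ_prodQ_two (hq : 0 < q) {F : Fin 2 → Type} [∀ j, Fintype (F j)] (W : ∀ j, F j → ℝ)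
    (E : ∀ j, F j → Fin q → ℝ) (hs : ∀ j η i, -1 < E j η i) (hz : ∀ ξ, ∑ i, E 1 ξ i = 0)
    (G : (Fin q → ℝ) → ℝ) :
    EQ (wDQ W E) (eDQ E) G = EQ (wMQ (W 1) (E 1) (W 0) (E 0)) (eMQ (E 1) (E 0)) G := by
  rw [EQ_prodQ_succ hq W E hs G, EQ_merge, EQ_merge]
  exact EQ_prodQ_one hq (fun j : Fin 1 => W j.succ) (fun j : Fin 1 => E j.succ) hz
    (fun a => ∑ y, W 0 y * KQ G a (E 0 y))

/-- the two pointwise inequalities for two messages -/
structure Pt4B (lam0 k c0 : ℝ) (p1 p2 c1 c2 : (Fin 4 → ℝ) → ℝ) : Prop where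
  X4 : ∀ a b, DT lam0 a → DT lam0 b →
    avQ (KQ alQ a) b ≤ alQ a + alQ b - p1 b * ps4 (k / lam0) a - p2 a * ps4 (k / lam0) b
      - c0 * (alQ a ^ 2 * alQ b + alQ a * alQ b ^ 2)
  C4 : ∀ a b, DT lam0 a → DT lam0 b →
    c1 b * ps4 (k / lam0) a + c2 a * ps4 (k / lam0) b ≤ avQ (KQ (ps4 k) a) b
  p1_nonneg : ∀ b, DT lam0 b → 0 ≤ p1 b
  c1_nonneg : ∀ b, DT lam0 b → 0 ≤ c1 b
  p2_nonneg : ∀ a, DT lam0 a → 0 ≤ p2 a
  c2_nonneg : ∀ a, DT lam0 a → 0 ≤ c2 a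

variable {ι κ : Type} [Fintype ι] [Fintype κ]

theorem Pt4B.mI {lam0 k c0 : ℝ} {p1 p2 c1 c2 : (Fin 4 → ℝ) → ℝ} (P : Pt4B lam0 k c0 p1 p2 c1 c2)
    (hk0 : 0 ≤ k) (hl0 : 0 < lam0) (hl1 : lam0 ≤ 1) (lam : ℝ) (h0 : 0 ≤ lam) (h1 : lam ≤ lam0)
    {w : ι → ℝ} {e : ι → Fin 4 → ℝ} {v : κ → ℝ} {f : κ → Fin 4 → ℝ} (hg : GoodQ 4 w e)
    (hg' : GoodQ 4 v f) (hi : 0 ≤ EQ w e (ps4 k)) (hi' : 0 ≤ EQ v f (ps4 k)) :
    0 ≤ EQ (wMQ w (fun η i => lam * e η i) v (fun η i => lam * f η i))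
      (eMQ (fun η i => lam * e η i) (fun η i => lam * f η i)) (ps4 k) := by
  have hr := hg.scale lam h0 (h1.trans hl1)
  have hs := hg'.scale lam h0 (h1.trans hl1)
  have key := merge_ge_bilin hr hs (ps4 k)
    (![ps4 (k / lam0), c2] : Fin 2 → (Fin 4 → ℝ) → ℝ)
    (![c1, ps4 (k / lam0)] : Fin 2 → (Fin 4 → ℝ) → ℝ)
    (fun x y => by
      have := P.C4 (fun i => lam * e x i) (fun i => lam * f y i) (hg.dt_scale lam lam0 h0 h1 x)
        (hg'.dt_scale lam lam0 h0 h1 y)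
      simp only [Fin.sum_univ_two, Matrix.cons_val_zero, Matrix.cons_val_one]
      linarith)
  simp only [Fin.sum_univ_two, Matrix.cons_val_zero, Matrix.cons_val_one] at key
  have e1 : 0 ≤ EQ v (fun η i => lam * f η i) c1 :=
    EQ_nonneg hs _ fun η => P.c1_nonneg _ (hg'.dt_scale lam lam0 h0 h1 η)
  have e2 : 0 ≤ EQ w (fun η i => lam * e η i) c2 :=
    EQ_nonneg hr _ fun η => P.c2_nonneg _ (hg.dt_scale lam lam0 h0 h1 η)
  have e3 := EQ_ps4_msg hg' k lam lam0 hk0 h0 hl0 h1 hi'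
  have e4 := EQ_ps4_msg hg k lam lam0 hk0 h0 hl0 h1 hi
  have t1 := mul_nonneg e4 e1
  have t2 := mul_nonneg e2 e3
  linarith

theorem Pt4B.mX {lam0 k c0 : ℝ} {p1 p2 c1 c2 : (Fin 4 → ℝ) → ℝ} (P : Pt4B lam0 k c0 p1 p2 c1 c2)
    (hk0 : 0 ≤ k) (hl0 : 0 < lam0) (hl1 : lam0 ≤ 1) (hc : 0 ≤ c0) (lam : ℝ) (h0 : 0 ≤ lam)
    (h1 : lam ≤ lam0)
    {w : ι → ℝ} {e : ι → Fin 4 → ℝ} {v : κ → ℝ} {f : κ → Fin 4 → ℝ} (hg : GoodQ 4 w e)
    (hg' : GoodQ 4 v f) (hi : 0 ≤ EQ w e (ps4 k)) (hi' : 0 ≤ EQ v f (ps4 k)) :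
    XQ (wMQ w (fun η i => lam * e η i) v (fun η i => lam * f η i))
      (eMQ (fun η i => lam * e η i) (fun η i => lam * f η i)) ≤
      lam ^ 2 * XQ w e + lam ^ 2 * XQ v f
        - c0 * ((lam ^ 2 * XQ w e) ^ 2 * (lam ^ 2 * XQ v f)
          + (lam ^ 2 * XQ w e) * (lam ^ 2 * XQ v f) ^ 2) := by
  have hr := hg.scale lam h0 (h1.trans hl1)
  have hs := hg'.scale lam h0 (h1.trans hl1)
  have key := merge_le_bilin hr hs alQ
    (![alQ, fun _ => 1, fun a => -(ps4 (k / lam0) a), fun a => -(p2 a), fun a => -(c0 * alQ a ^ 2),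
      fun a => -(c0 * alQ a)] : Fin 6 → (Fin 4 → ℝ) → ℝ)
    (![fun _ => 1, alQ, p1, ps4 (k / lam0), alQ, fun b => alQ b ^ 2] : Fin 6 → (Fin 4 → ℝ) → ℝ)
    (fun x y => by
      have := P.X4 (fun i => lam * e x i) (fun i => lam * f y i) (hg.dt_scale lam lam0 h0 h1 x)
        (hg'.dt_scale lam lam0 h0 h1 y)
      simp only [Fin.sum_univ_six, Matrix.cons_val_zero, Matrix.cons_val_one, Matrix.cons_val]
      linarith)
  simp only [Fin.sum_univ_six, Matrix.cons_val_zero, Matrix.cons_val_one, Matrix.cons_val] at key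
  rw [EQ_const hs, EQ_const hr, EQ_neg, EQ_neg, EQ_neg, EQ_neg, EQ_cmul, EQ_cmul] at key
  have hX : EQ w (fun η i => lam * e η i) alQ = lam ^ 2 * XQ w e := XQ_scale w e lam
  have hY : EQ v (fun η i => lam * f η i) alQ = lam ^ 2 * XQ v f := XQ_scale v f lam
  have e1 : 0 ≤ EQ v (fun η i => lam * f η i) p1 :=
    EQ_nonneg hs _ fun η => P.p1_nonneg _ (hg'.dt_scale lam lam0 h0 h1 η)
  have e2 : 0 ≤ EQ w (fun η i => lam * e η i) p2 :=
    EQ_nonneg hr _ fun η => P.p2_nonneg _ (hg.dt_scale lam lam0 h0 h1 η)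
  have e3 := EQ_ps4_msg hg' k lam lam0 hk0 h0 hl0 h1 hi'
  have e4 := EQ_ps4_msg hg k lam lam0 hk0 h0 hl0 h1 hi
  have j1 := hr.sq_EQ_le alQ
  have j2 := hs.sq_EQ_le alQ
  have x0 : 0 ≤ EQ w (fun η i => lam * e η i) alQ := hr.XQ_nonneg (by norm_num)
  have y0 : 0 ≤ EQ v (fun η i => lam * f η i) alQ := hs.XQ_nonneg (by norm_num)
  rw [← hX, ← hY]
  unfold XQ
  set X := EQ w (fun η i => lam * e η i) alQ
  set Y := EQ v (fun η i => lam * f η i) alQ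
  have t1 := mul_nonneg e4 e1
  have t2 := mul_nonneg e2 e3
  have t3 := mul_nonneg hc (mul_nonneg (sub_nonneg.2 j1) y0)
  have t4 := mul_nonneg hc (mul_nonneg x0 (sub_nonneg.2 j2))
  nlinarith

/-- expectation at the root of the binary tree of depth `n + 1` -/
theorem EQ_bin_succ (lam : ℝ) (h0 : 0 ≤ lam) (h1 : lam < 1) (n : ℕ) (G : (Fin 4 → ℝ) → ℝ) :
    EQ (margT 4 lam (n + 1) (regT 2 (n + 1))) (evQ 4 lam (n + 1) (regT 2 (n + 1))) G =
      EQ (wMQ (margT 4 lam n (regT 2 n)) (fun η i => lam * evQ 4 lam n (regT 2 n) η i)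
          (margT 4 lam n (regT 2 n)) (fun η i => lam * evQ 4 lam n (regT 2 n) η i))
        (eMQ (fun η i => lam * evQ 4 lam n (regT 2 n) η i)
          (fun η i => lam * evQ 4 lam n (regT 2 n) η i)) G := by
  have hq : 0 < 4 := by norm_num
  have hg0 := treeQ_good hq lam h0 h1 n (regT 2 n)
  have hg : ∀ j : Fin (regT 2 (n + 1)).1, GoodQ 4 (margT 4 lam n ((regT 2 (n + 1)).2 j))
      (evQ 4 lam n ((regT 2 (n + 1)).2 j)) :=
    fun j => treeQ_good hq lam h0 h1 n _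
  have hs : ∀ (j : Fin (regT 2 (n + 1)).1) (ξ : ConfT 4 n ((regT 2 (n + 1)).2 j)) (i : Fin 4),
      -1 < lam * evQ 4 lam n ((regT 2 (n + 1)).2 j) ξ i :=
    fun j ξ i => (hg j).scale_strict lam h0 h1 ξ i
  rw [margQ_succ hq lam n (regT 2 (n + 1)) (fun j ξ => (hg j).pos ξ),
    evQ_succ hq lam n (regT 2 (n + 1)) (fun j ξ => (hg j).pos ξ) hs]
  exact EQ_prodQ_two hq (F := fun _ : Fin 2 => ConfT 4 n (regT 2 n))
    (fun _ => margT 4 lam n (regT 2 n)) (fun _ ξ i => lam * evQ 4 lam n (regT 2 n) ξ i)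
    (fun _ ξ i => hg0.scale_strict lam h0 h1 ξ i)
    (fun ξ => by rw [← Finset.mul_sum, hg0.zero ξ, mul_zero]) G

/-- four colours, binary tree, from the pointwise inequalities for two messages -/
theorem bin4_of_pointwiseB {lam0 k c0 : ℝ} {p1 p2 c1 c2 : (Fin 4 → ℝ) → ℝ}
    (P : Pt4B lam0 k c0 p1 p2 c1 c2) (hk0 : 0 ≤ k) (hk : k ≤ 2) (hl0 : 0 < lam0) (hl1 : lam0 ≤ 1)
    (hc : 0 < c0) (lam : ℝ) (h0 : 0 ≤ lam) (h1 : lam ≤ lam0)
    (h2 : (2 : ℝ) * lam ^ 2 ≤ 1) : Tendsto (fun n => aTV 4 2 lam n) atTop (𝓝 0) := by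
  have hl : lam < 1 := by nlinarith [sq_nonneg lam]
  have hq : 0 < 4 := by norm_num
  have hq2 : 2 ≤ 4 := by norm_num
  have inv : ∀ n, 0 ≤ EQ (margT 4 lam n (regT 2 n)) (evQ 4 lam n (regT 2 n)) (ps4 k) := by
    intro n
    induction n with
    | zero => exact leaf4 k lam hk _
    | succ n ih =>
      rw [EQ_bin_succ lam h0 hl n]
      have hg0 := treeQ_good hq lam h0 hl n (regT 2 n)
      exact P.mI hk0 hl0 hl1 lam h0 h1 hg0 hg0 ih ih
  have hstep : ∀ n, xQ 4 lam (n + 1) (regT 2 (n + 1)) ≤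
      2 * lam ^ 2 * xQ 4 lam n (regT 2 n) - 2 * c0 * lam ^ 6 * xQ 4 lam n (regT 2 n) ^ 3 := by
    intro n
    have hg0 := treeQ_good hq lam h0 hl n (regT 2 n)
    have := P.mX hk0 hl0 hl1 hc.le lam h0 h1 hg0 hg0 (inv n) (inv n)
    unfold xQ
    unfold XQ at *
    rw [EQ_bin_succ lam h0 hl n]
    calc _ ≤ _ := this
      _ = _ := by ring
  have hx : Tendsto (fun n => xQ 4 lam n (regT 2 n)) atTop (𝓝 0) :=
    seq_zero3' (fun n => xQ 4 lam n (regT 2 n)) 2 (2 * c0) lam h0 h2 (by positivity)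
      (fun n => xQ_nonneg hq2 h0 hl n _) hstep
  have he : (fun n => aTV 4 2 lam n) = fun n => aT 4 lam n (regT 2 n) :=
    funext fun n => (aT_regT 4 2 lam n).symm
  rw [he]
  exact tendsto_of_sq_leQ hq2 _ _ (fun n => (aT_sq_leQ hq2 h0 hl n _).1)
    (fun n => (aT_sq_leQ hq2 h0 hl n _).2) hx

end Vale.Agent.P154
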