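import Vale.Agent.P154.Q4.MainQ

/-!
# P154, four colours: from two pointwise inequalities to nonreconstruction

Deviation vectors `a : Fin 4 → ℝ` (`a c = 4 X c - 1`).  `DT r a` says that `a` has sum zero and all entries `≥ -r` (so `DT 1` is the simplex `T` and
`DT lam0` is `lam0 * T`).  `m4 a = (∑ a i ^ 3) / 24`, `ps4 k a = 2 m4 a - k (alQ a)^2` is the class function.

`Pt4 lam0 k c0 p1 p2 c1 c2` packages the two pointwise inequalities (cubic subadditivity `X4`, closure `C4`) with nonnegative multipliers.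
`cert4_of_pointwise`: `Pt4` gives `CertQ 4 lam c0 (ps4 k)` for every `0 ≤ lam ≤ lam0`.
-/

namespace Vale.Agent.P154

open Finset Filter Topology

def DT (r : ℝ) (a : Fin 4 → ℝ) : Prop := (∑ i, a i = 0) ∧ ∀ i, -r ≤ a i

noncomputable def m4 (a : Fin 4 → ℝ) : ℝ := (∑ i, a i ^ 3) / 24

noncomputable def ps4 (k : ℝ) (a : Fin 4 → ℝ) : ℝ := 2 * m4 a - k * alQ a ^ 2

structure Pt4 (lam0 k c0 : ℝ) (p1 p2 c1 c2 : (Fin 4 → ℝ) → ℝ) : Prop where
  X4 : ∀ a b, DT 1 a → DT lam0 b →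
    avQ (KQ alQ a) b ≤ alQ a + alQ b - p1 b * ps4 k a - p2 a * ps4 (k / lam0) b
      - c0 * (alQ a ^ 2 * alQ b + alQ a * alQ b ^ 2)
  C4 : ∀ a b, DT 1 a → DT lam0 b →
    c1 b * ps4 k a + c2 a * ps4 (k / lam0) b ≤ avQ (KQ (ps4 k) a) b
  p1_nonneg : ∀ b, DT lam0 b → 0 ≤ p1 b
  c1_nonneg : ∀ b, DT lam0 b → 0 ≤ c1 b
  p2_nonneg : ∀ a, DT 1 a → 0 ≤ p2 a
  c2_nonneg : ∀ a, DT 1 a → 0 ≤ c2 a

theorem m4_smul (lam : ℝ) (a : Fin 4 → ℝ) : m4 (fun i => lam * a i) = lam ^ 3 * m4 a := by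
  unfold m4
  simp only [mul_pow]
  rw [← Finset.mul_sum]
  ring

theorem ps4_zero (k : ℝ) : ps4 k (fun _ => 0) = 0 := by
  unfold ps4 m4
  rw [alQ_zero]
  simp

/-- the class function of a message dominates `lam^3` times the class function of the subtree -/
theorem ps4_msg (k lam lam0 : ℝ) (hk : 0 ≤ k) (h0 : 0 ≤ lam) (hl0 : 0 < lam0) (h1 : lam ≤ lam0)
    (a : Fin 4 → ℝ) : lam ^ 3 * ps4 k a ≤ ps4 (k / lam0) (fun i => lam * a i) := by
  unfold ps4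
  rw [m4_smul, alQ_smul]
  have h2 : lam / lam0 ≤ 1 := (div_le_one hl0).2 h1
  have h3 : 0 ≤ lam ^ 3 * k * alQ a ^ 2 := by positivity
  have h4 : k / lam0 * (lam ^ 2 * alQ a) ^ 2 = (lam ^ 3 * k * alQ a ^ 2) * (lam / lam0) := by
    field_simp
  rw [h4]
  nlinarith [mul_le_mul_of_nonneg_left h2 h3]

variable {ι κ : Type} [Fintype ι] [Fintype κ]

theorem EQ_neg {q : ℕ} (w : ι → ℝ) (e : ι → Fin q → ℝ) (g : (Fin q → ℝ) → ℝ) :
    EQ w e (fun a => -(g a)) = -EQ w e g := by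
  unfold EQ
  rw [← Finset.sum_neg_distrib]
  exact Finset.sum_congr rfl fun η _ => by ring

theorem EQ_cmul {q : ℕ} (w : ι → ℝ) (e : ι → Fin q → ℝ) (c : ℝ) (g : (Fin q → ℝ) → ℝ) :
    EQ w e (fun a => c * g a) = c * EQ w e g := by
  unfold EQ
  rw [Finset.mul_sum]
  exact Finset.sum_congr rfl fun η _ => by ring

theorem GoodQ.dt {w : ι → ℝ} {e : ι → Fin 4 → ℝ} (h : GoodQ 4 w e) (η : ι) : DT 1 (e η) :=
  ⟨h.zero η, h.ge η⟩

theorem GoodQ.dt_scale {w : ι → ℝ} {e : ι → Fin 4 → ℝ} (h : GoodQ 4 w e) (lam lam0 : ℝ)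
    (h0 : 0 ≤ lam) (h1 : lam ≤ lam0) (η : ι) : DT lam0 (fun i => lam * e η i) := by
  refine ⟨?_, fun i => ?_⟩
  · rw [← Finset.mul_sum, h.zero η, mul_zero]
  · have := h.ge η i
    nlinarith

theorem EQ_ps4_msg {v : κ → ℝ} {f : κ → Fin 4 → ℝ} (h : GoodQ 4 v f) (k lam lam0 : ℝ) (hk : 0 ≤ k)
    (h0 : 0 ≤ lam) (hl0 : 0 < lam0) (h1 : lam ≤ lam0) (hc : 0 ≤ EQ v f (ps4 k)) :
    0 ≤ EQ v (fun η i => lam * f η i) (ps4 (k / lam0)) := by
  have h2 : EQ v f (fun a => lam ^ 3 * ps4 k a) ≤ EQ v (fun η i => lam * f η i) (ps4 (k / lam0)) := by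
    unfold EQ
    exact Finset.sum_le_sum fun η _ =>
      mul_le_mul_of_nonneg_left (ps4_msg k lam lam0 hk h0 hl0 h1 (f η)) (h.pos η).le
  rw [EQ_cmul] at h2
  have h3 : 0 ≤ lam ^ 3 * EQ v f (ps4 k) := by positivity
  linarith

theorem leaf4 (k lam : ℝ) (hk : k ≤ 2) (T : GT 0) :
    0 ≤ EQ (margT 4 lam 0 T) (evQ 4 lam 0 T) (ps4 k) := by
  have main : ∀ x : Fin 4, 0 ≤ ps4 k (evQ 4 lam 0 T x) := by
    intro x
    have hev : evQ 4 lam 0 T x = fun i : Fin 4 => 4 * (if x = i then 1 else 0) - 1 := by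
      funext i
      have := evQ_zero (q := 4) (by norm_num) lam T x i
      simpa using this
    have hm : m4 (evQ 4 lam 0 T x) = 1 := by
      rw [hev]
      unfold m4
      fin_cases x <;> simp [Fin.sum_univ_four] <;> norm_num
    have ha : alQ (evQ 4 lam 0 T x) = 1 := by
      rw [hev]
      unfold alQ
      fin_cases x <;> simp [Fin.sum_univ_four] <;> norm_num
    unfold ps4
    rw [hm, ha]
    linarith
  exact EQ_nonneg (baseQ_good (by norm_num) lam T) _ fun η => main η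

theorem cert4_of_pointwise {lam0 k c0 : ℝ} {p1 p2 c1 c2 : (Fin 4 → ℝ) → ℝ}
    (P : Pt4 lam0 k c0 p1 p2 c1 c2) (hk0 : 0 ≤ k) (hk : k ≤ 2) (hl0 : 0 < lam0) (hl1 : lam0 ≤ 1)
    (hc : 0 ≤ c0) (lam : ℝ) (h0 : 0 ≤ lam) (h1 : lam ≤ lam0) : CertQ 4 lam c0 (ps4 k) := by
  refine ⟨(ps4_zero k).ge, leaf4 k lam hk, ?_, ?_⟩
  · intro ι κ _ _ w e v f hg hg' hi hi'
    have hs := hg'.scale lam h0 (h1.trans hl1)
    have key := merge_le_bilin hg hs alQ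
      (![alQ, fun _ => 1, fun a => -(ps4 k a), fun a => -(p2 a), fun a => -(c0 * alQ a ^ 2),
        fun a => -(c0 * alQ a)] : Fin 6 → (Fin 4 → ℝ) → ℝ)
      (![fun _ => 1, alQ, p1, ps4 (k / lam0), alQ, fun b => alQ b ^ 2] : Fin 6 → (Fin 4 → ℝ) → ℝ)
      (fun x y => by
        have := P.X4 (e x) (fun i => lam * f y i) (hg.dt x) (hg'.dt_scale lam lam0 h0 h1 y)
        simp only [Fin.sum_univ_six, Matrix.cons_val_zero, Matrix.cons_val_one, Matrix.cons_val]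
        linarith)
    simp only [Fin.sum_univ_six, Matrix.cons_val_zero, Matrix.cons_val_one, Matrix.cons_val] at key
    rw [EQ_const hs, EQ_const hg, EQ_neg, EQ_neg, EQ_neg, EQ_neg, EQ_cmul, EQ_cmul] at key
    have hY : EQ v (fun η i => lam * f η i) alQ = lam ^ 2 * XQ v f := XQ_scale v f lam
    have e1 : 0 ≤ EQ v (fun η i => lam * f η i) p1 :=
      EQ_nonneg hs _ fun η => P.p1_nonneg _ (hg'.dt_scale lam lam0 h0 h1 η)
    have e2 : 0 ≤ EQ w e p2 := EQ_nonneg hg _ fun η => P.p2_nonneg _ (hg.dt η)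
    have e3 := EQ_ps4_msg hg' k lam lam0 hk0 h0 hl0 h1 hi'
    have j1 := hg.sq_EQ_le alQ
    have j2 := hs.sq_EQ_le alQ
    have x0 : 0 ≤ EQ w e alQ := hg.XQ_nonneg (by norm_num)
    have y0 : 0 ≤ EQ v (fun η i => lam * f η i) alQ := hs.XQ_nonneg (by norm_num)
    unfold XQ at *
    rw [← hY]
    set X := EQ w e alQ
    set Y := EQ v (fun η i => lam * f η i) alQ
    have t1 := mul_nonneg hi e1
    have t2 := mul_nonneg e2 e3
    have t3 := mul_nonneg hc (mul_nonneg (sub_nonneg.2 j1) y0)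
    have t4 := mul_nonneg hc (mul_nonneg x0 (sub_nonneg.2 j2))
    nlinarith
  · intro ι κ _ _ w e v f hg hg' hi hi'
    have hs := hg'.scale lam h0 (h1.trans hl1)
    have key := merge_ge_bilin hg hs (ps4 k)
      (![ps4 k, c2] : Fin 2 → (Fin 4 → ℝ) → ℝ)
      (![c1, ps4 (k / lam0)] : Fin 2 → (Fin 4 → ℝ) → ℝ)
      (fun x y => by
        have := P.C4 (e x) (fun i => lam * f y i) (hg.dt x) (hg'.dt_scale lam lam0 h0 h1 y)
        simp only [Fin.sum_univ_two, Matrix.cons_val_zero, Matrix.cons_val_one]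
        linarith)
    simp only [Fin.sum_univ_two, Matrix.cons_val_zero, Matrix.cons_val_one] at key
    have e1 : 0 ≤ EQ v (fun η i => lam * f η i) c1 :=
      EQ_nonneg hs _ fun η => P.c1_nonneg _ (hg'.dt_scale lam lam0 h0 h1 η)
    have e2 : 0 ≤ EQ w e c2 := EQ_nonneg hg _ fun η => P.c2_nonneg _ (hg.dt η)
    have e3 := EQ_ps4_msg hg' k lam lam0 hk0 h0 hl0 h1 hi'
    have t1 := mul_nonneg hi e1
    have t2 := mul_nonneg e2 e3
    linarith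

/-- four colours: the two pointwise inequalities give nonreconstruction on `d`-ary trees -/
theorem reg4_of_pointwise {lam0 k c0 : ℝ} {p1 p2 c1 c2 : (Fin 4 → ℝ) → ℝ}
    (P : Pt4 lam0 k c0 p1 p2 c1 c2) (hk0 : 0 ≤ k) (hk : k ≤ 2) (hl0 : 0 < lam0) (hl1 : lam0 ≤ 1)
    (hc : 0 < c0) (hc1 : c0 ≤ 1 / 3) (lam : ℝ) (h0 : 0 ≤ lam) (h1 : lam ≤ lam0) (d : ℕ) (hd : 2 ≤ d)
    (h2 : (d : ℝ) * lam ^ 2 ≤ 1) : Tendsto (fun n => aTV 4 d lam n) atTop (𝓝 0) :=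
  regQ_nonreconstruction (by norm_num) (cert4_of_pointwise P hk0 hk hl0 hl1 hc.le lam h0 h1) hc hc1 h0
    d hd h2

/-- four colours: the two pointwise inequalities give nonreconstruction on Poisson trees -/
theorem gw4_of_pointwise {lam0 k c0 : ℝ} {p1 p2 c1 c2 : (Fin 4 → ℝ) → ℝ}
    (P : Pt4 lam0 k c0 p1 p2 c1 c2) (hk0 : 0 ≤ k) (hk : k ≤ 2) (hl0 : 0 < lam0) (hl1 : lam0 < 1)
    (hc : 0 < c0) (hc1 : c0 ≤ 1 / 3) (lam : ℝ) (h0 : 0 ≤ lam) (h1 : lam ≤ lam0) (d : ℝ) (hd : 0 < d)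
    (h2 : d * lam ^ 2 ≤ 1) : Tendsto (fun n => aGW 4 d lam n) atTop (𝓝 0) :=
  gwQ_nonreconstruction (by norm_num) (cert4_of_pointwise P hk0 hk hl0 hl1.le hc.le lam h0 h1) hc hc1
    d hd h0 (lt_of_le_of_lt h1 hl1) h2

end Vale.Agent.P154
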