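import Vale.Agent.P154.Q4.TreeQ

/-!
# P154, general `q`: the second moment `alQ` and the total variation distance
-/

namespace Vale.Agent.P154

open Finset

variable {q : ℕ} {ι : Type} [Fintype ι] {w : ι → ℝ} {e : ι → Fin q → ℝ}

theorem alQ_nonneg (hq : 2 ≤ q) (a : Fin q → ℝ) : 0 ≤ alQ a := by
  unfold alQ
  have h2 : (2 : ℝ) ≤ q := by exact_mod_cast hq
  apply div_nonneg (Finset.sum_nonneg fun i _ => sq_nonneg _)
  nlinarith

theorem alQ_zero : alQ (fun _ : Fin q => (0 : ℝ)) = 0 := by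
  unfold alQ
  simp

theorem alQ_smul (lam : ℝ) (a : Fin q → ℝ) : alQ (fun i => lam * a i) = lam ^ 2 * alQ a := by
  unfold alQ
  simp only [mul_pow]
  rw [← Finset.mul_sum]
  ring

theorem coord_le (hq : 2 ≤ q) (a : Fin q → ℝ) (h0 : ∑ i, a i = 0) (h : ∀ i, -1 ≤ a i) (i : Fin q) :
    a i ≤ (q : ℝ) - 1 := by
  have h1 : ∑ j ∈ Finset.univ.erase i, a j = - a i := by
    have := Finset.add_sum_erase Finset.univ a (Finset.mem_univ i)
    linarith
  have h2 : ∑ j ∈ Finset.univ.erase i, (-1 : ℝ) ≤ ∑ j ∈ Finset.univ.erase i, a j :=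
    Finset.sum_le_sum fun j _ => h j
  rw [Finset.sum_const, Finset.card_erase_of_mem (Finset.mem_univ i)] at h2
  simp at h2
  have h3 : ((q - 1 : ℕ) : ℝ) = (q : ℝ) - 1 := by
    rw [Nat.cast_sub (by omega)]
    simp
  rw [h3] at h2
  linarith

theorem alQ_le_one (hq : 2 ≤ q) (a : Fin q → ℝ) (h0 : ∑ i, a i = 0) (h : ∀ i, -1 ≤ a i) :
    alQ a ≤ 1 := by
  have h2 : (2 : ℝ) ≤ q := by exact_mod_cast hq
  unfold alQ
  rw [div_le_one (by nlinarith)]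
  have h1 : ∀ i, a i ^ 2 ≤ ((q : ℝ) - 2) * a i + ((q : ℝ) - 1) := by
    intro i
    have u := coord_le hq a h0 h i
    have l := h i
    nlinarith [mul_nonneg (by linarith : (0:ℝ) ≤ a i + 1) (by linarith : (0:ℝ) ≤ (q : ℝ) - 1 - a i)]
  calc ∑ i, a i ^ 2 ≤ ∑ i, (((q : ℝ) - 2) * a i + ((q : ℝ) - 1)) := Finset.sum_le_sum fun i _ => h1 i
    _ = (q : ℝ) * ((q : ℝ) - 1) := by
        rw [Finset.sum_add_distrib, ← Finset.mul_sum, h0]
        simp
        ring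

theorem GoodQ.XQ_nonneg (hq : 2 ≤ q) (h : GoodQ q w e) : 0 ≤ XQ w e :=
  EQ_nonneg h _ fun η => alQ_nonneg hq _

theorem GoodQ.XQ_le_one (hq : 2 ≤ q) (h : GoodQ q w e) : XQ w e ≤ 1 := by
  have := EQ_mono h alQ (fun _ => 1) (fun η => alQ_le_one hq _ (h.zero η) (h.ge η))
  rwa [EQ_const h] at this

theorem XQ_scale (w : ι → ℝ) (e : ι → Fin q → ℝ) (lam : ℝ) :
    XQ w (fun η i => lam * e η i) = lam ^ 2 * XQ w e := by
  unfold XQ EQ
  rw [Finset.mul_sum]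
  refine Finset.sum_congr rfl fun η _ => ?_
  rw [alQ_smul]
  ring

/-- Jensen: `(E g)^2 ≤ E g^2` -/
theorem GoodQ.sq_EQ_le (h : GoodQ q w e) (g : (Fin q → ℝ) → ℝ) :
    (EQ w e g) ^ 2 ≤ EQ w e (fun a => g a ^ 2) := by
  set m : ℝ := EQ w e g with hm
  have h1 : 0 ≤ ∑ η, w η * (g (e η) - m) ^ 2 :=
    Finset.sum_nonneg (fun η _ => mul_nonneg (h.pos η).le (sq_nonneg _))
  have h2 : ∑ η, w η * (g (e η) - m) ^ 2 = EQ w e (fun a => g a ^ 2) - m ^ 2 := by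
    have e1 : ∀ η, w η * (g (e η) - m) ^ 2 =
        w η * g (e η) ^ 2 - 2 * m * (w η * g (e η)) + m ^ 2 * w η := by
      intro η
      ring
    rw [Finset.sum_congr rfl (fun η _ => e1 η), Finset.sum_add_distrib, Finset.sum_sub_distrib,
      ← Finset.mul_sum, ← Finset.mul_sum, h.tot]
    have : ∑ η, w η * g (e η) = m := rfl
    rw [this]
    unfold EQ
    ring
  linarith

/-- total variation is controlled by `XQ` -/
theorem GoodQ.tv_sq_le (hq : 2 ≤ q) (h : GoodQ q w e) :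
    (∑ η, w η * ((1 / (2 * (q : ℝ))) * ∑ i, |e η i|)) ^ 2 ≤ ((q : ℝ) - 1) / 4 * XQ w e := by
  have h2 : (2 : ℝ) ≤ q := by exact_mod_cast hq
  have hq0 : (0 : ℝ) < q := by linarith
  have h1 := h.sq_EQ_le (fun a => (1 / (2 * (q : ℝ))) * ∑ i, |a i|)
  refine h1.trans ?_
  have h3 : ((q : ℝ) - 1) / 4 * XQ w e = EQ w e (fun a => ((q : ℝ) - 1) / 4 * alQ a) := by
    unfold XQ EQ
    rw [Finset.mul_sum]
    refine Finset.sum_congr rfl fun η _ => ?_
    ring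
  rw [h3]
  refine EQ_mono h _ _ fun η => ?_
  have cs : (∑ i, |e η i|) ^ 2 ≤ (q : ℝ) * ∑ i, e η i ^ 2 := by
    have := sq_sum_le_card_mul_sum_sq (s := (Finset.univ : Finset (Fin q))) (f := fun i => |e η i|)
    simpa [sq_abs] using this
  unfold alQ
  have hq1 : (0 : ℝ) < (q : ℝ) - 1 := by linarith
  rw [mul_pow]
  have e1 : ((q : ℝ) - 1) / 4 * ((∑ i, e η i ^ 2) / ((q : ℝ) * ((q : ℝ) - 1))) =
      (1 / (2 * (q : ℝ))) ^ 2 * ((q : ℝ) * ∑ i, e η i ^ 2) := by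
    field_simp
    ring
  rw [e1]
  exact mul_le_mul_of_nonneg_left cs (by positivity)

end Vale.Agent.P154
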