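import Vale.Agent.P154.Q4.MergeQ

/-!
# P154, general `q`: the channel, transport along bijections, and the bilinear summation lemma

`merge_le_bilin`: if, pointwise, the average over the permutations of `b` of `KQ F a b` is at most a finite sum `∑ r, u r a * t r b`, then the
expectation of `F` in the combined experiment is at most `∑ r, (E u r) * (E' t r)`.  `merge_ge_bilin`: the same with `≥`.
-/

namespace Vale.Agent.P154

open Finset

variable {q : ℕ} {ι κ : Type} [Fintype ι] [Fintype κ] {w : ι → ℝ} {e : ι → Fin q → ℝ}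
  {v : κ → ℝ} {f : κ → Fin q → ℝ}

theorem GoodQ.scale (h : GoodQ q w e) (lam : ℝ) (h0 : 0 ≤ lam) (h1 : lam ≤ 1) :
    GoodQ q w (fun η i => lam * e η i) := by
  refine ⟨h.pos, h.tot, ?_, ?_, ?_⟩
  · intro η
    rw [← Finset.mul_sum, h.zero η, mul_zero]
  · intro η i
    have := h.ge η i
    nlinarith
  · intro σ F
    exact h.sym σ (fun a => F (fun i => lam * a i))

theorem GoodQ.scale_strict (h : GoodQ q w e) (lam : ℝ) (h0 : 0 ≤ lam) (h1 : lam < 1) (η : ι)
    (i : Fin q) : -1 < lam * e η i := by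
  have := h.ge η i
  nlinarith

theorem GoodQ.of_equiv (φ : κ ≃ ι) (h : GoodQ q w e) :
    GoodQ q (fun k => w (φ k)) (fun k => e (φ k)) := by
  refine ⟨fun k => h.pos (φ k), ?_, fun k => h.zero (φ k), fun k i => h.ge (φ k) i, ?_⟩
  · rw [Equiv.sum_comp φ w]
    exact h.tot
  · intro σ F
    rw [Equiv.sum_comp φ (fun η => w η * F (fun i => e η (σ i))),
      Equiv.sum_comp φ (fun η => w η * F (e η))]
    exact h.sym σ F

theorem EQ_equiv (φ : κ ≃ ι) (w : ι → ℝ) (e : ι → Fin q → ℝ) (F : (Fin q → ℝ) → ℝ) :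
    EQ (fun k => w (φ k)) (fun k => e (φ k)) F = EQ w e F := by
  unfold EQ
  exact Equiv.sum_comp φ (fun η => w η * F (e η))

theorem EQ_mono (h : GoodQ q w e) (F G : (Fin q → ℝ) → ℝ) (hFG : ∀ η, F (e η) ≤ G (e η)) :
    EQ w e F ≤ EQ w e G := by
  unfold EQ
  exact Finset.sum_le_sum fun η _ => mul_le_mul_of_nonneg_left (hFG η) (h.pos η).le

theorem EQ_nonneg (h : GoodQ q w e) (F : (Fin q → ℝ) → ℝ) (hF : ∀ η, 0 ≤ F (e η)) : 0 ≤ EQ w e F := by
  unfold EQ
  exact Finset.sum_nonneg fun η _ => mul_nonneg (h.pos η).le (hF η)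

theorem EQ_const (h : GoodQ q w e) (c : ℝ) : EQ w e (fun _ => c) = c := by
  unfold EQ
  rw [← Finset.sum_mul, h.tot, one_mul]

theorem EQ_bilin {R : Type} [Fintype R] (w : ι → ℝ) (e : ι → Fin q → ℝ) (v : κ → ℝ)
    (f : κ → Fin q → ℝ) (u t : R → (Fin q → ℝ) → ℝ) :
    ∑ x, w x * ∑ y, v y * ∑ r, u r (e x) * t r (f y) = ∑ r, EQ w e (u r) * EQ v f (t r) := by
  unfold EQ
  have h1 : ∀ x, w x * ∑ y, v y * ∑ r, u r (e x) * t r (f y) =
      ∑ r, (w x * u r (e x)) * ∑ y, v y * t r (f y) := by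
    intro x
    have h2 : ∑ y, v y * ∑ r, u r (e x) * t r (f y) = ∑ r, u r (e x) * ∑ y, v y * t r (f y) := by
      simp only [Finset.mul_sum]
      rw [Finset.sum_comm]
      refine Finset.sum_congr rfl fun r _ => Finset.sum_congr rfl fun y _ => ?_
      ring
    rw [h2, Finset.mul_sum]
    refine Finset.sum_congr rfl fun r _ => ?_
    ring
  simp only [h1]
  rw [Finset.sum_comm]
  refine Finset.sum_congr rfl fun r _ => ?_
  rw [Finset.sum_mul]

theorem merge_le_bilin (h : GoodQ q w e) (h' : GoodQ q v f) (F : (Fin q → ℝ) → ℝ) {R : Type}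
    [Fintype R] (u t : R → (Fin q → ℝ) → ℝ)
    (hp : ∀ x y, avQ (KQ F (e x)) (f y) ≤ ∑ r, u r (e x) * t r (f y)) :
    EQ (wMQ w e v f) (eMQ e f) F ≤ ∑ r, EQ w e (u r) * EQ v f (t r) := by
  rw [EQ_merge, ← EQ_bilin]
  refine Finset.sum_le_sum fun x _ => mul_le_mul_of_nonneg_left ?_ (h.pos x).le
  have h1 := h'.avg (KQ F (e x))
  unfold EQ at h1
  rw [h1]
  exact Finset.sum_le_sum fun y _ => mul_le_mul_of_nonneg_left (hp x y) (h'.pos y).le

theorem merge_ge_bilin (h : GoodQ q w e) (h' : GoodQ q v f) (F : (Fin q → ℝ) → ℝ) {R : Type}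
    [Fintype R] (u t : R → (Fin q → ℝ) → ℝ)
    (hp : ∀ x y, ∑ r, u r (e x) * t r (f y) ≤ avQ (KQ F (e x)) (f y)) :
    ∑ r, EQ w e (u r) * EQ v f (t r) ≤ EQ (wMQ w e v f) (eMQ e f) F := by
  rw [EQ_merge, ← EQ_bilin]
  refine Finset.sum_le_sum fun x _ => mul_le_mul_of_nonneg_left ?_ (h.pos x).le
  have h1 := h'.avg (KQ F (e x))
  unfold EQ at h1
  rw [h1]
  exact Finset.sum_le_sum fun y _ => mul_le_mul_of_nonneg_left (hp x y) (h'.pos y).le

end Vale.Agent.P154
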