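import Vale.Agent.P154.Q4.Thresh57

/-!
# P154, four colours: a general class function on `T × T`

`PtG ps c0 p1 p2 c1 c2` packages the two pointwise inequalities (cubic subadditivity `X4`, closure `C4`) for one class function `ps`,
used for the accumulated observations `a ∈ T` and for the message `b ∈ T` with all entries `> -1`.
`ClsG ps`: `ps` vanishes at the centre, is nonnegative at the vertices, and `lam^3 * ps a ≤ ps (lam * a)` on `T` (channel step).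
Together they give `CertQ 4 lam c0 ps` for every `0 ≤ lam < 1`, hence the complete threshold statement for four colours, `lam ≥ 0`.
-/

namespace Vale.Agent.P154

open Finset Filter Topology

structure PtG (ps : (Fin 4 → ℝ) → ℝ) (c0 : ℝ) (p1 p2 c1 c2 : (Fin 4 → ℝ) → ℝ) : Prop where
  X4 : ∀ a b, DT 1 a → DT 1 b → (∀ i, -1 < b i) →
    avQ (KQ alQ a) b ≤ alQ a + alQ b - p1 b * ps a - p2 a * ps b
      - c0 * (alQ a ^ 2 * alQ b + alQ a * alQ b ^ 2)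
  C4 : ∀ a b, DT 1 a → DT 1 b → (∀ i, -1 < b i) →
    c1 b * ps a + c2 a * ps b ≤ avQ (KQ ps a) b
  p1_nonneg : ∀ b, DT 1 b → 0 ≤ p1 b
  c1_nonneg : ∀ b, DT 1 b → 0 ≤ c1 b
  p2_nonneg : ∀ a, DT 1 a → 0 ≤ p2 a
  c2_nonneg : ∀ a, DT 1 a → 0 ≤ c2 a

structure ClsG (ps : (Fin 4 → ℝ) → ℝ) : Prop where
  zero : 0 ≤ ps (fun _ => 0)
  vertex : ∀ x : Fin 4, 0 ≤ ps (fun i : Fin 4 => 4 * (if x = i then 1 else 0) - 1)
  channel : ∀ (lam : ℝ) (a : Fin 4 → ℝ), 0 ≤ lam → lam ≤ 1 → DT 1 a →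
    lam ^ 3 * ps a ≤ ps (fun i => lam * a i)

variable {ι κ : Type} [Fintype ι] [Fintype κ]

theorem EQ_msgG {ps : (Fin 4 → ℝ) → ℝ} (H : ClsG ps) {v : κ → ℝ} {f : κ → Fin 4 → ℝ}
    (h : GoodQ 4 v f) (lam : ℝ) (h0 : 0 ≤ lam) (h1 : lam ≤ 1) (hc : 0 ≤ EQ v f ps) :
    0 ≤ EQ v (fun η i => lam * f η i) ps := by
  have h2 : EQ v f (fun a => lam ^ 3 * ps a) ≤ EQ v (fun η i => lam * f η i) ps := by
    unfold EQ
    exact Finset.sum_le_sum fun η _ =>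
      mul_le_mul_of_nonneg_left (H.channel lam (f η) h0 h1 (h.dt η)) (h.pos η).le
  rw [EQ_cmul] at h2
  have h3 : 0 ≤ lam ^ 3 * EQ v f ps := by positivity
  linarith

theorem leafG {ps : (Fin 4 → ℝ) → ℝ} (H : ClsG ps) (lam : ℝ) (T : GT 0) :
    0 ≤ EQ (margT 4 lam 0 T) (evQ 4 lam 0 T) ps := by
  have main : ∀ x : Fin 4, 0 ≤ ps (evQ 4 lam 0 T x) := by
    intro x
    have hev : evQ 4 lam 0 T x = fun i : Fin 4 => 4 * (if x = i then 1 else 0) - 1 := by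
      funext i
      have := evQ_zero (q := 4) (by norm_num) lam T x i
      simpa using this
    rw [hev]
    exact H.vertex x
  exact EQ_nonneg (baseQ_good (by norm_num) lam T) _ fun η => main η

theorem certG_of_pointwise {ps : (Fin 4 → ℝ) → ℝ} {c0 : ℝ} {p1 p2 c1 c2 : (Fin 4 → ℝ) → ℝ}
    (P : PtG ps c0 p1 p2 c1 c2) (H : ClsG ps) (hc : 0 ≤ c0) (lam : ℝ) (h0 : 0 ≤ lam) (h1 : lam < 1) :
    CertQ 4 lam c0 ps := by
  refine ⟨H.zero, leafG H lam, ?_, ?_⟩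
  · intro ι κ _ _ w e v f hg hg' hi hi'
    have hs := hg'.scale lam h0 h1.le
    have key := merge_le_bilin hg hs alQ
      (![alQ, fun _ => 1, fun a => -(ps a), fun a => -(p2 a), fun a => -(c0 * alQ a ^ 2),
        fun a => -(c0 * alQ a)] : Fin 6 → (Fin 4 → ℝ) → ℝ)
      (![fun _ => 1, alQ, p1, ps, alQ, fun b => alQ b ^ 2] : Fin 6 → (Fin 4 → ℝ) → ℝ)
      (fun x y => by
        have := P.X4 (e x) (fun i => lam * f y i) (hg.dt x) (hg'.dt_scale lam 1 h0 h1.le y)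
          (fun i => hg'.scale_strict lam h0 h1 y i)
        simp only [Fin.sum_univ_six, Matrix.cons_val_zero, Matrix.cons_val_one, Matrix.cons_val]
        linarith)
    simp only [Fin.sum_univ_six, Matrix.cons_val_zero, Matrix.cons_val_one, Matrix.cons_val] at key
    rw [EQ_const hs, EQ_const hg, EQ_neg, EQ_neg, EQ_neg, EQ_neg, EQ_cmul, EQ_cmul] at key
    have hY : EQ v (fun η i => lam * f η i) alQ = lam ^ 2 * XQ v f := XQ_scale v f lam
    have e1 : 0 ≤ EQ v (fun η i => lam * f η i) p1 :=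
      EQ_nonneg hs _ fun η => P.p1_nonneg _ (hg'.dt_scale lam 1 h0 h1.le η)
    have e2 : 0 ≤ EQ w e p2 := EQ_nonneg hg _ fun η => P.p2_nonneg _ (hg.dt η)
    have e3 := EQ_msgG H hg' lam h0 h1.le hi'
    have j1 := hg.sq_EQ_le alQ
    have j2 := hs.sq_EQ_le alQ
    have x0 : 0 ≤ EQ w e alQ := hg.XQ_nonneg (by norm_num)
    have y0 : 0 ≤ EQ v (fun η i => lam * f η i) alQ := hs.XQ_nonneg (by norm_num)
    unfold XQ at *
    rw [← hY]
    set X := EQ w e alQ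
    set Y := EQ v (fun η i => lam * f η i) alQ
    have t1 := mul_nonneg hi e1
    have t2 := mul_nonneg e2 e3
    have t3 := mul_nonneg hc (mul_nonneg (sub_nonneg.2 j1) y0)
    have t4 := mul_nonneg hc (mul_nonneg x0 (sub_nonneg.2 j2))
    nlinarith
  · intro ι κ _ _ w e v f hg hg' hi hi'
    have hs := hg'.scale lam h0 h1.le
    have key := merge_ge_bilin hg hs ps
      (![ps, c2] : Fin 2 → (Fin 4 → ℝ) → ℝ)
      (![c1, ps] : Fin 2 → (Fin 4 → ℝ) → ℝ)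
      (fun x y => by
        have := P.C4 (e x) (fun i => lam * f y i) (hg.dt x) (hg'.dt_scale lam 1 h0 h1.le y)
          (fun i => hg'.scale_strict lam h0 h1 y i)
        simp only [Fin.sum_univ_two, Matrix.cons_val_zero, Matrix.cons_val_one]
        linarith)
    simp only [Fin.sum_univ_two, Matrix.cons_val_zero, Matrix.cons_val_one] at key
    have e1 : 0 ≤ EQ v (fun η i => lam * f η i) c1 :=
      EQ_nonneg hs _ fun η => P.c1_nonneg _ (hg'.dt_scale lam 1 h0 h1.le η)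
    have e2 : 0 ≤ EQ w e c2 := EQ_nonneg hg _ fun η => P.c2_nonneg _ (hg.dt η)
    have e3 := EQ_msgG H hg' lam h0 h1.le hi'
    have t1 := mul_nonneg hi e1
    have t2 := mul_nonneg e2 e3
    linarith

theorem four_regularG {ps : (Fin 4 → ℝ) → ℝ} {c0 : ℝ} {p1 p2 c1 c2 : (Fin 4 → ℝ) → ℝ}
    (P : PtG ps c0 p1 p2 c1 c2) (H : ClsG ps) (hc : 0 < c0) (hc1 : c0 ≤ 1 / 3)
    (d : ℕ) (lam : ℝ) (hd : 2 ≤ d) (h0 : 0 ≤ lam) (h2 : (d : ℝ) * lam ^ 2 ≤ 1) :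
    Tendsto (fun n => aTV 4 d lam n) atTop (𝓝 0) := by
  have hd2 : (2 : ℝ) ≤ d := by exact_mod_cast hd
  have hl : lam < 1 := by nlinarith [sq_nonneg lam]
  exact regQ_nonreconstruction (by norm_num) (certG_of_pointwise P H hc.le lam h0 hl) hc hc1 h0
    d hd h2

theorem four_poissonG {ps : (Fin 4 → ℝ) → ℝ} {c0 : ℝ} {p1 p2 c1 c2 : (Fin 4 → ℝ) → ℝ}
    (P : PtG ps c0 p1 p2 c1 c2) (H : ClsG ps) (hc : 0 < c0) (hc1 : c0 ≤ 1 / 3)
    (d lam : ℝ) (hd : 0 < d) (h0 : 0 ≤ lam) (h1 : lam ≤ 1)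
    (h2 : d * lam ^ 2 ≤ 1) : Tendsto (fun n => aGW 4 d lam n) atTop (𝓝 0) := by
  rcases le_or_gt d 1 with h | h
  · exact gw_extinct 4 (by norm_num) d lam hd.le h (potts4_nonneg lam h0 h1)
  · have hl : lam < 1 := by
      by_contra hcon
      have hl1 : lam = 1 := le_antisymm h1 (not_lt.1 hcon)
      rw [hl1] at h2
      linarith
    exact gwQ_nonreconstruction (by norm_num) (certG_of_pointwise P H hc.le lam h0 hl) hc hc1
      d hd h0 hl h2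

/-- the complete threshold statement for four colours and `lam ≥ 0`, both tree models -/
theorem four_thresholdG {ps : (Fin 4 → ℝ) → ℝ} {c0 : ℝ} {p1 p2 c1 c2 : (Fin 4 → ℝ) → ℝ}
    (P : PtG ps c0 p1 p2 c1 c2) (H : ClsG ps) (hc : 0 < c0) (hc1 : c0 ≤ 1 / 3) :
    (∀ (d : ℕ) (lam : ℝ), 2 ≤ d → 0 ≤ lam → lam ≤ 1 →
      (1 < (d : ℝ) * lam ^ 2 → ∃ c : ℝ, 0 < c ∧ ∀ n, c ≤ aTV 4 d lam n) ∧
      ((d : ℝ) * lam ^ 2 ≤ 1 → Tendsto (fun n => aTV 4 d lam n) atTop (𝓝 0))) ∧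
    (∀ (d lam : ℝ), 0 < d → 0 ≤ lam → lam ≤ 1 →
      (∀ n, (∀ T, 0 ≤ probT d n T) ∧ HasSum (probT d n) 1) ∧
      (∀ n, Summable (fun T : GT n => probT d n T * aT 4 lam n T)) ∧
      (1 < d * lam ^ 2 → ∃ c : ℝ, 0 < c ∧ ∀ n, c ≤ aGW 4 d lam n) ∧
      (d * lam ^ 2 ≤ 1 → Tendsto (fun n => aGW 4 d lam n) atTop (𝓝 0))) := by
  refine ⟨fun d lam hd h0 h1 => ⟨fun h2 => regQ_rec_all (by norm_num) d lam h0 h1 h2, fun h2 =>
    four_regularG P H hc hc1 d lam hd h0 h2⟩, fun d lam hd h0 h1 => ?_⟩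
  have hp := potts4_nonneg lam h0 h1
  refine ⟨fun n => ⟨probT_nonneg d hd.le n, probT_hasSum d hd.le n⟩, fun n => ?_,
    fun h2 => gwQ_rec_all (by norm_num) d lam hd h0 h1 h2, fun h2 =>
    four_poissonG P H hc hc1 d lam hd h0 h1 h2⟩
  exact summable_probT_mul d hd.le n _ (aT_nonneg' 4 lam hp n) (aT_le_one 4 (by norm_num) lam hp n)

end Vale.Agent.P154
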