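import Vale.Agent.P154.Q4.AlQ

/-!
# P154, general `q`: from a merging certificate to the recursion on fixed trees

`CertQ q lam c0 ps` packages what the analysis of one merging step has to provide for the channel `lam`:
a class function `ps` (the class is `0 ≤ EQ w e ps`) such that
* the trivial experiment and the leaf experiment are in the class;
* if `(w, e)` (accumulated observations) and `(v, f)` (root of a new subtree) are good and in the class, then the combination of `(w, e)` with the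
  message `(v, lam * f)` is in the class (`mI`) and its second moment satisfies the cubic subadditivity (`mX`).
Everything below is bookkeeping: stars of `k` different subtrees, fixed trees.
-/

namespace Vale.Agent.P154

open Finset

structure CertQ (q : ℕ) (lam c0 : ℝ) (ps : (Fin q → ℝ) → ℝ) : Prop where
  zero : 0 ≤ ps (fun _ => 0)
  leaf : ∀ T : GT 0, 0 ≤ EQ (margT q lam 0 T) (evQ q lam 0 T) ps
  mX : ∀ {ι κ : Type} [Fintype ι] [Fintype κ] (w : ι → ℝ) (e : ι → Fin q → ℝ) (v : κ → ℝ)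
    (f : κ → Fin q → ℝ), GoodQ q w e → GoodQ q v f → 0 ≤ EQ w e ps → 0 ≤ EQ v f ps →
    XQ (wMQ w e v (fun η i => lam * f η i)) (eMQ e (fun η i => lam * f η i)) ≤
      XQ w e + lam ^ 2 * XQ v f
        - c0 * (XQ w e ^ 2 * (lam ^ 2 * XQ v f) + XQ w e * (lam ^ 2 * XQ v f) ^ 2)
  mI : ∀ {ι κ : Type} [Fintype ι] [Fintype κ] (w : ι → ℝ) (e : ι → Fin q → ℝ) (v : κ → ℝ)
    (f : κ → Fin q → ℝ), GoodQ q w e → GoodQ q v f → 0 ≤ EQ w e ps → 0 ≤ EQ v f ps →
    0 ≤ EQ (wMQ w e v (fun η i => lam * f η i)) (eMQ e (fun η i => lam * f η i)) ps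

variable {q : ℕ} {lam c0 : ℝ} {ps : (Fin q → ℝ) → ℝ}

/-- a star of `k` different experiments read through the channel: good and in the class -/
theorem starQ_all (hq : 0 < q) (C : CertQ q lam c0 ps) (h0 : 0 ≤ lam) (h1 : lam < 1) :
    ∀ (k : ℕ) (F : Fin k → Type) [∀ j, Fintype (F j)] (W : ∀ j, F j → ℝ)
    (E : ∀ j, F j → Fin q → ℝ), (∀ j, GoodQ q (W j) (E j)) → (∀ j, 0 ≤ EQ (W j) (E j) ps) →
    GoodQ q (wDQ W (fun j ξ i => lam * E j ξ i)) (eDQ (fun j ξ i => lam * E j ξ i)) ∧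
      0 ≤ EQ (wDQ W (fun j ξ i => lam * E j ξ i)) (eDQ (fun j ξ i => lam * E j ξ i)) ps := by
  intro k
  induction k with
  | zero =>
    intro F _ W E _ _
    refine ⟨prodQ_zero hq _ _, ?_⟩
    rw [EQ_prodQ_zero hq]
    exact C.zero
  | succ k ih =>
    intro F _ W E h hi
    obtain ⟨g, iv⟩ := ih (fun j => F j.succ) (fun j => W j.succ) (fun j => E j.succ)
      (fun j => h j.succ) (fun j => hi j.succ)
    have hs : ∀ j η i, -1 < lam * E j η i := fun j η i => (h j).scale_strict lam h0 h1 η i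
    refine ⟨prodQ_good hq (k + 1) F W _ (fun j => (h j).scale lam h0 h1.le) hs, ?_⟩
    rw [EQ_prodQ_succ hq W (fun j ξ i => lam * E j ξ i) hs ps]
    exact C.mI _ _ _ _ g (h 0) iv (hi 0)

theorem starQ_step (hq : 0 < q) (C : CertQ q lam c0 ps) (h0 : 0 ≤ lam) (h1 : lam < 1)
    {k : ℕ} {F : Fin (k + 1) → Type} [∀ j, Fintype (F j)] (W : ∀ j, F j → ℝ)
    (E : ∀ j, F j → Fin q → ℝ) (h : ∀ j, GoodQ q (W j) (E j)) (hi : ∀ j, 0 ≤ EQ (W j) (E j) ps) :
    XQ (wDQ W (fun j ξ i => lam * E j ξ i)) (eDQ (fun j ξ i => lam * E j ξ i)) ≤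
      XQ (wDQ (fun j : Fin k => W j.succ) (fun (j : Fin k) ξ i => lam * E j.succ ξ i))
          (eDQ (fun (j : Fin k) ξ i => lam * E j.succ ξ i))
        + lam ^ 2 * XQ (W 0) (E 0)
        - c0 * (XQ (wDQ (fun j : Fin k => W j.succ) (fun (j : Fin k) ξ i => lam * E j.succ ξ i))
          (eDQ (fun (j : Fin k) ξ i => lam * E j.succ ξ i)) ^ 2 * (lam ^ 2 * XQ (W 0) (E 0))
          + XQ (wDQ (fun j : Fin k => W j.succ) (fun (j : Fin k) ξ i => lam * E j.succ ξ i))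
          (eDQ (fun (j : Fin k) ξ i => lam * E j.succ ξ i)) * (lam ^ 2 * XQ (W 0) (E 0)) ^ 2) := by
  obtain ⟨g, iv⟩ := starQ_all hq C h0 h1 k (fun j => F j.succ) (fun j => W j.succ) (fun j => E j.succ)
    (fun j => h j.succ) (fun j => hi j.succ)
  have hs : ∀ j η i, -1 < lam * E j η i := fun j η i => (h j).scale_strict lam h0 h1 η i
  have := EQ_prodQ_succ hq W (fun j ξ i => lam * E j ξ i) hs alQ
  unfold XQ at *
  rw [this]
  exact C.mX _ _ _ _ g (h 0) iv (hi 0)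

/-- second moment of the posterior of the root on the fixed tree `T` -/
noncomputable def xQ (q : ℕ) (lam : ℝ) (n : ℕ) (T : GT n) : ℝ := XQ (margT q lam n T) (evQ q lam n T)

/-- second moment for a root with the `k` subtrees `c j` -/
noncomputable def XKQ (q : ℕ) (lam : ℝ) (n k : ℕ) (c : Fin k → GT n) : ℝ :=
  XQ (wDQ (fun j => margT q lam n (c j)) (fun j ξ i => lam * evQ q lam n (c j) ξ i))
    (eDQ (fun j ξ i => lam * evQ q lam n (c j) ξ i))

theorem treeQ_inv (hq : 0 < q) (C : CertQ q lam c0 ps) (h0 : 0 ≤ lam) (h1 : lam < 1) (n : ℕ) (T : GT n) :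
    0 ≤ EQ (margT q lam n T) (evQ q lam n T) ps := by
  induction n with
  | zero => exact C.leaf T
  | succ n ih =>
    have hg : ∀ j, GoodQ q (margT q lam n (T.2 j)) (evQ q lam n (T.2 j)) :=
      fun j => treeQ_good hq lam h0 h1 n (T.2 j)
    have hs : ∀ (j : Fin T.1) (ξ : ConfT q n (T.2 j)) (i : Fin q),
        -1 < lam * evQ q lam n (T.2 j) ξ i := fun j ξ i => (hg j).scale_strict lam h0 h1 ξ i
    rw [margQ_succ hq lam n T (fun j ξ => (hg j).pos ξ), evQ_succ hq lam n T (fun j ξ => (hg j).pos ξ) hs]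
    exact (starQ_all hq C h0 h1 T.1 (fun j => ConfT q n (T.2 j)) (fun j => margT q lam n (T.2 j))
      (fun j => evQ q lam n (T.2 j)) hg (fun j => ih (T.2 j))).2

theorem xQ_succ (hq : 0 < q) (h0 : 0 ≤ lam) (h1 : lam < 1) (n : ℕ) (T : GT (n + 1)) :
    xQ q lam (n + 1) T = XKQ q lam n T.1 T.2 := by
  have hg : ∀ j, GoodQ q (margT q lam n (T.2 j)) (evQ q lam n (T.2 j)) :=
    fun j => treeQ_good hq lam h0 h1 n (T.2 j)
  have hs : ∀ (j : Fin T.1) (ξ : ConfT q n (T.2 j)) (i : Fin q),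
      -1 < lam * evQ q lam n (T.2 j) ξ i := fun j ξ i => (hg j).scale_strict lam h0 h1 ξ i
  unfold xQ XKQ
  rw [margQ_succ hq lam n T (fun j ξ => (hg j).pos ξ), evQ_succ hq lam n T (fun j ξ => (hg j).pos ξ) hs]
  rfl

theorem xQ_nonneg (hq : 2 ≤ q) (h0 : 0 ≤ lam) (h1 : lam < 1) (n : ℕ) (T : GT n) : 0 ≤ xQ q lam n T :=
  (treeQ_good (by omega) lam h0 h1 n T).XQ_nonneg hq

theorem xQ_le_one (hq : 2 ≤ q) (h0 : 0 ≤ lam) (h1 : lam < 1) (n : ℕ) (T : GT n) : xQ q lam n T ≤ 1 :=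
  (treeQ_good (by omega) lam h0 h1 n T).XQ_le_one hq

theorem XKQ_good (hq : 0 < q) (h0 : 0 ≤ lam) (h1 : lam < 1) (n k : ℕ) (c : Fin k → GT n) :
    GoodQ q (wDQ (fun j => margT q lam n (c j)) (fun j ξ i => lam * evQ q lam n (c j) ξ i))
      (eDQ (fun j ξ i => lam * evQ q lam n (c j) ξ i)) :=
  prodQ_good hq k (fun j => ConfT q n (c j)) (fun j => margT q lam n (c j))
    (fun j ξ i => lam * evQ q lam n (c j) ξ i)
    (fun j => (treeQ_good hq lam h0 h1 n (c j)).scale lam h0 h1.le)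
    (fun j ξ i => (treeQ_good hq lam h0 h1 n (c j)).scale_strict lam h0 h1 ξ i)

theorem XKQ_zero (hq : 0 < q) (n : ℕ) (c : Fin 0 → GT n) : XKQ q lam n 0 c = 0 := by
  unfold XKQ XQ
  rw [EQ_prodQ_zero hq]
  exact alQ_zero

theorem XKQ_nonneg (hq : 2 ≤ q) (h0 : 0 ≤ lam) (h1 : lam < 1) (n k : ℕ) (c : Fin k → GT n) :
    0 ≤ XKQ q lam n k c :=
  (XKQ_good (by omega) h0 h1 n k c).XQ_nonneg hq

theorem XKQ_le_one (hq : 2 ≤ q) (h0 : 0 ≤ lam) (h1 : lam < 1) (n k : ℕ) (c : Fin k → GT n) :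
    XKQ q lam n k c ≤ 1 :=
  (XKQ_good (by omega) h0 h1 n k c).XQ_le_one hq

theorem XKQ_succ (hq : 0 < q) (C : CertQ q lam c0 ps) (h0 : 0 ≤ lam) (h1 : lam < 1) (n k : ℕ)
    (c : Fin (k + 1) → GT n) :
    XKQ q lam n (k + 1) c ≤ XKQ q lam n k (Fin.tail c) + lam ^ 2 * xQ q lam n (c 0)
      - c0 * (XKQ q lam n k (Fin.tail c) ^ 2 * (lam ^ 2 * xQ q lam n (c 0))
        + XKQ q lam n k (Fin.tail c) * (lam ^ 2 * xQ q lam n (c 0)) ^ 2) :=
  starQ_step hq C h0 h1 (F := fun j => ConfT q n (c j)) (fun j => margT q lam n (c j))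
    (fun j => evQ q lam n (c j)) (fun j => treeQ_good hq lam h0 h1 n (c j))
    (fun j => treeQ_inv hq C h0 h1 n (c j))

/-- total variation on a fixed tree -/
theorem aT_sq_leQ (hq : 2 ≤ q) (h0 : 0 ≤ lam) (h1 : lam < 1) (n : ℕ) (T : GT n) :
    0 ≤ aT q lam n T ∧ aT q lam n T ^ 2 ≤ ((q : ℝ) - 1) / 4 * xQ q lam n T := by
  have hg := treeQ_good (by omega : 0 < q) lam h0 h1 n T
  rw [aT_eqQ (by omega)]
  refine ⟨?_, hg.tv_sq_le hq⟩
  exact Finset.sum_nonneg fun η _ => mul_nonneg (hg.pos η).le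
    (mul_nonneg (by positivity) (Finset.sum_nonneg fun i _ => abs_nonneg _))

end Vale.Agent.P154
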