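import Vale.Agent.P154.Q4.Cert4

/-!
# P154, general `q`: merging certificates with a restricted accumulated experiment (small degrees)

`CertQR q lam c0 rho ps` is `CertQ` with the inequalities required only when the accumulated experiment has all deviations `≥ -rho`.
`AccB q lam rho j`: the combination of `j` messages (read through the channel `lam`) has all deviations `≥ -rho`.
If `AccB` holds for all `j < K` the certificate gives nonreconstruction on the `d`-ary tree for `2 ≤ d ≤ K`.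
`AccB` holds for `j = 0` (if `0 ≤ rho`) and for `j = 1` (if `lam ≤ rho`), so `K = 2` is always available: the binary tree needs the two
pointwise inequalities only on `rho T × lam0 T` with `lam ≤ rho`.
-/

namespace Vale.Agent.P154

open Finset Filter Topology

structure CertQR (q : ℕ) (lam c0 rho : ℝ) (ps : (Fin q → ℝ) → ℝ) : Prop where
  zero : 0 ≤ ps (fun _ => 0)
  leaf : ∀ T : GT 0, 0 ≤ EQ (margT q lam 0 T) (evQ q lam 0 T) ps
  mX : ∀ {ι κ : Type} [Fintype ι] [Fintype κ] (w : ι → ℝ) (e : ι → Fin q → ℝ) (v : κ → ℝ)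
    (f : κ → Fin q → ℝ), GoodQ q w e → (∀ η i, -rho ≤ e η i) → GoodQ q v f → 0 ≤ EQ w e ps →
    0 ≤ EQ v f ps →
    XQ (wMQ w e v (fun η i => lam * f η i)) (eMQ e (fun η i => lam * f η i)) ≤
      XQ w e + lam ^ 2 * XQ v f
        - c0 * (XQ w e ^ 2 * (lam ^ 2 * XQ v f) + XQ w e * (lam ^ 2 * XQ v f) ^ 2)
  mI : ∀ {ι κ : Type} [Fintype ι] [Fintype κ] (w : ι → ℝ) (e : ι → Fin q → ℝ) (v : κ → ℝ)
    (f : κ → Fin q → ℝ), GoodQ q w e → (∀ η i, -rho ≤ e η i) → GoodQ q v f → 0 ≤ EQ w e ps →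
    0 ≤ EQ v f ps →
    0 ≤ EQ (wMQ w e v (fun η i => lam * f η i)) (eMQ e (fun η i => lam * f η i)) ps

def AccB (q : ℕ) (lam rho : ℝ) (k : ℕ) : Prop :=
  ∀ (F : Fin k → Type) [∀ j, Fintype (F j)] (W : ∀ j, F j → ℝ) (E : ∀ j, F j → Fin q → ℝ),
    (∀ j, GoodQ q (W j) (E j)) → ∀ η i, -rho ≤ eDQ (fun j ξ i => lam * E j ξ i) η i

variable {q : ℕ} {lam c0 rho : ℝ} {ps : (Fin q → ℝ) → ℝ}

theorem accB_zero (hq : 0 < q) (hr : 0 ≤ rho) : AccB q lam rho 0 := by
  intro F _ W E _ η i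
  rw [eDQ_zero hq]
  linarith

theorem accB_one (hq : 0 < q) (h0 : 0 ≤ lam) (hr : lam ≤ rho) : AccB q lam rho 1 := by
  intro F _ W E h η i
  have hq' : (q : ℝ) ≠ 0 := by positivity
  have hs : sDQ (fun j ξ i => lam * E j ξ i) η = 1 := by
    unfold sDQ
    simp only [Fin.prod_univ_one]
    rw [Finset.sum_add_distrib, ← Finset.mul_sum, (h 0).zero (η 0)]
    simp [hq']
  have he : eDQ (fun j ξ i => lam * E j ξ i) η i = lam * E 0 (η 0) i := by
    unfold eDQ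
    rw [hs]
    simp
  rw [he]
  have := (h 0).ge (η 0) i
  nlinarith

theorem starQR_all (hq : 0 < q) (C : CertQR q lam c0 rho ps) (h0 : 0 ≤ lam) (h1 : lam < 1) (K : ℕ)
    (hB : ∀ j, j < K → AccB q lam rho j) :
    ∀ (k : ℕ), k ≤ K → ∀ (F : Fin k → Type) [∀ j, Fintype (F j)] (W : ∀ j, F j → ℝ)
    (E : ∀ j, F j → Fin q → ℝ), (∀ j, GoodQ q (W j) (E j)) → (∀ j, 0 ≤ EQ (W j) (E j) ps) →
    GoodQ q (wDQ W (fun j ξ i => lam * E j ξ i)) (eDQ (fun j ξ i => lam * E j ξ i)) ∧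
      0 ≤ EQ (wDQ W (fun j ξ i => lam * E j ξ i)) (eDQ (fun j ξ i => lam * E j ξ i)) ps := by
  intro k
  induction k with
  | zero =>
    intro _ F _ W E _ _
    refine ⟨prodQ_zero hq _ _, ?_⟩
    rw [EQ_prodQ_zero hq]
    exact C.zero
  | succ k ih =>
    intro hk F _ W E h hi
    obtain ⟨g, iv⟩ := ih (by omega) (fun j => F j.succ) (fun j => W j.succ) (fun j => E j.succ)
      (fun j => h j.succ) (fun j => hi j.succ)
    have hs : ∀ j η i, -1 < lam * E j η i := fun j η i => (h j).scale_strict lam h0 h1 η i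
    refine ⟨prodQ_good hq (k + 1) F W _ (fun j => (h j).scale lam h0 h1.le) hs, ?_⟩
    rw [EQ_prodQ_succ hq W (fun j ξ i => lam * E j ξ i) hs ps]
    exact C.mI _ _ _ _ g
      (hB k (by omega) (fun j => F j.succ) (fun j => W j.succ) (fun j => E j.succ) (fun j => h j.succ))
      (h 0) iv (hi 0)

theorem starQR_step (hq : 0 < q) (C : CertQR q lam c0 rho ps) (h0 : 0 ≤ lam) (h1 : lam < 1) (K : ℕ)
    (hB : ∀ j, j < K → AccB q lam rho j) {k : ℕ} (hk : k + 1 ≤ K) {F : Fin (k + 1) → Type}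
    [∀ j, Fintype (F j)] (W : ∀ j, F j → ℝ)
    (E : ∀ j, F j → Fin q → ℝ) (h : ∀ j, GoodQ q (W j) (E j)) (hi : ∀ j, 0 ≤ EQ (W j) (E j) ps) :
    XQ (wDQ W (fun j ξ i => lam * E j ξ i)) (eDQ (fun j ξ i => lam * E j ξ i)) ≤
      XQ (wDQ (fun j : Fin k => W j.succ) (fun (j : Fin k) ξ i => lam * E j.succ ξ i))
          (eDQ (fun (j : Fin k) ξ i => lam * E j.succ ξ i))
        + lam ^ 2 * XQ (W 0) (E 0)
        - c0 * (XQ (wDQ (fun j : Fin k => W j.succ) (fun (j : Fin k) ξ i => lam * E j.succ ξ i))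
          (eDQ (fun (j : Fin k) ξ i => lam * E j.succ ξ i)) ^ 2 * (lam ^ 2 * XQ (W 0) (E 0))
          + XQ (wDQ (fun j : Fin k => W j.succ) (fun (j : Fin k) ξ i => lam * E j.succ ξ i))
          (eDQ (fun (j : Fin k) ξ i => lam * E j.succ ξ i)) * (lam ^ 2 * XQ (W 0) (E 0)) ^ 2) := by
  obtain ⟨g, iv⟩ := starQR_all hq C h0 h1 K hB k (by omega) (fun j => F j.succ) (fun j => W j.succ)
    (fun j => E j.succ) (fun j => h j.succ) (fun j => hi j.succ)
  have hs : ∀ j η i, -1 < lam * E j η i := fun j η i => (h j).scale_strict lam h0 h1 η i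
  have := EQ_prodQ_succ hq W (fun j ξ i => lam * E j ξ i) hs alQ
  unfold XQ at *
  rw [this]
  exact C.mX _ _ _ _ g
    (hB k (by omega) (fun j => F j.succ) (fun j => W j.succ) (fun j => E j.succ) (fun j => h j.succ))
    (h 0) iv (hi 0)

/-- the experiment of the regular tree is in the class -/
theorem regQR_inv (hq : 0 < q) (C : CertQR q lam c0 rho ps) (h0 : 0 ≤ lam) (h1 : lam < 1) (K : ℕ)
    (hB : ∀ j, j < K → AccB q lam rho j) (d : ℕ) (hd : d ≤ K) (n : ℕ) :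
    0 ≤ EQ (margT q lam n (regT d n)) (evQ q lam n (regT d n)) ps := by
  induction n with
  | zero => exact C.leaf _
  | succ n ih =>
    have hg : ∀ j : Fin (regT d (n + 1)).1, GoodQ q (margT q lam n ((regT d (n + 1)).2 j))
        (evQ q lam n ((regT d (n + 1)).2 j)) :=
      fun j => treeQ_good hq lam h0 h1 n _
    have hs : ∀ (j : Fin (regT d (n + 1)).1) (ξ : ConfT q n ((regT d (n + 1)).2 j)) (i : Fin q),
        -1 < lam * evQ q lam n ((regT d (n + 1)).2 j) ξ i :=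
      fun j ξ i => (hg j).scale_strict lam h0 h1 ξ i
    rw [margQ_succ hq lam n (regT d (n + 1)) (fun j ξ => (hg j).pos ξ),
      evQ_succ hq lam n (regT d (n + 1)) (fun j ξ => (hg j).pos ξ) hs]
    exact (starQR_all hq C h0 h1 K hB (regT d (n + 1)).1 hd
      (fun j => ConfT q n ((regT d (n + 1)).2 j)) (fun j => margT q lam n ((regT d (n + 1)).2 j))
      (fun j => evQ q lam n ((regT d (n + 1)).2 j)) hg (fun _ => ih)).2

theorem XKQR_succ (hq : 0 < q) (C : CertQR q lam c0 rho ps) (h0 : 0 ≤ lam) (h1 : lam < 1) (K : ℕ)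
    (hB : ∀ j, j < K → AccB q lam rho j) (n k : ℕ) (hk : k + 1 ≤ K) (c : Fin (k + 1) → GT n)
    (hi : ∀ j, 0 ≤ EQ (margT q lam n (c j)) (evQ q lam n (c j)) ps) :
    XKQ q lam n (k + 1) c ≤ XKQ q lam n k (Fin.tail c) + lam ^ 2 * xQ q lam n (c 0)
      - c0 * (XKQ q lam n k (Fin.tail c) ^ 2 * (lam ^ 2 * xQ q lam n (c 0))
        + XKQ q lam n k (Fin.tail c) * (lam ^ 2 * xQ q lam n (c 0)) ^ 2) :=
  starQR_step hq C h0 h1 K hB hk (F := fun j => ConfT q n (c j)) (fun j => margT q lam n (c j))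
    (fun j => evQ q lam n (c j)) (fun j => treeQ_good hq lam h0 h1 n (c j)) hi

/-- `k ≤ K` equal children in the class -/
theorem XKQR_const (hq : 2 ≤ q) (C : CertQR q lam c0 rho ps) (hc0 : 0 ≤ c0) (hc1 : c0 ≤ 1 / 3)
    (h0 : 0 ≤ lam) (h1 : lam < 1) (K : ℕ) (hB : ∀ j, j < K → AccB q lam rho j) (n : ℕ) (t : GT n)
    (ht : 0 ≤ EQ (margT q lam n t) (evQ q lam n t) ps) (k : ℕ) (hk : k ≤ K) :
    XKQ q lam n k (fun _ => t) ≤ k * (lam ^ 2 * xQ q lam n t) ∧
      (2 ≤ k → XKQ q lam n k (fun _ => t) ≤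
        k * (lam ^ 2 * xQ q lam n t) - 2 * c0 * (lam ^ 2 * xQ q lam n t) ^ 3) := by
  have hq0 : 0 < q := by omega
  have hx0 := xQ_nonneg hq h0 h1 n t
  have hx1 := xQ_le_one hq h0 h1 n t
  have hy0 : 0 ≤ lam ^ 2 * xQ q lam n t := mul_nonneg (sq_nonneg lam) hx0
  have hy1 : lam ^ 2 * xQ q lam n t ≤ 1 := by nlinarith [sq_nonneg lam]
  induction k with
  | zero =>
    refine ⟨?_, fun h => by omega⟩
    rw [XKQ_zero hq0]
    simp
  | succ k ih =>
    obtain ⟨i1, i2⟩ := ih (by omega)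
    have hs := XKQR_succ hq0 C h0 h1 K hB n k hk (fun _ => t) (fun _ => ht)
    have htail : Fin.tail (fun _ : Fin (k + 1) => t) = fun _ : Fin k => t := rfl
    rw [htail] at hs
    have hX0 := XKQ_nonneg hq h0 h1 n k (fun _ => t)
    have hX1 := XKQ_le_one hq h0 h1 n k (fun _ => t)
    set y := lam ^ 2 * xQ q lam n t with hy
    set X := XKQ q lam n k (fun _ => t) with hX
    have hgain : 0 ≤ c0 * (X ^ 2 * y + X * y ^ 2) := by positivity
    refine ⟨?_, fun hk2 => ?_⟩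
    · push_cast
      linarith
    · push_cast
      rcases Nat.lt_or_ge k 2 with hlt | hge
      · have hk1 : k = 1 := by omega
        subst hk1
        push_cast at i1 ⊢
        rw [one_mul] at i1
        have hfac : (y - c0 * (y ^ 2 * y + y * y ^ 2)) - (X - c0 * (X ^ 2 * y + X * y ^ 2)) =
            (y - X) * (1 - c0 * ((y + X) * y + y ^ 2)) := by ring
        have hb : c0 * ((y + X) * y + y ^ 2) ≤ 1 := by
          have h5 : (y + X) * y + y ^ 2 ≤ 3 := by nlinarith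
          have h6 : 0 ≤ (y + X) * y + y ^ 2 := by positivity
          nlinarith
        have := mul_nonneg (sub_nonneg.2 i1) (sub_nonneg.2 hb)
        nlinarith
      · have := i2 hge
        linarith

/-- nonreconstruction on the `d`-ary tree, `2 ≤ d ≤ K`, from a restricted certificate -/
theorem regQR_nonreconstruction (hq : 2 ≤ q) (C : CertQR q lam c0 rho ps) (hc0 : 0 < c0)
    (hc1 : c0 ≤ 1 / 3) (h0 : 0 ≤ lam) (K : ℕ) (hB : ∀ j, j < K → AccB q lam rho j) (d : ℕ)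
    (hd : 2 ≤ d) (hdK : d ≤ K) (h2 : (d : ℝ) * lam ^ 2 ≤ 1) :
    Tendsto (fun n => aTV q d lam n) atTop (𝓝 0) := by
  have hd2 : (2 : ℝ) ≤ d := by exact_mod_cast hd
  have h1 : lam < 1 := by nlinarith [sq_nonneg lam]
  have hq0 : 0 < q := by omega
  have hstep : ∀ n, xQ q lam (n + 1) (regT d (n + 1)) ≤
      d * lam ^ 2 * xQ q lam n (regT d n) - 2 * c0 * lam ^ 6 * xQ q lam n (regT d n) ^ 3 := by
    intro n
    rw [xQ_succ hq0 h0 h1 n (regT d (n + 1))]
    have := (XKQR_const hq C hc0.le hc1 h0 h1 K hB n (regT d n)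
      (regQR_inv hq0 C h0 h1 K hB d hdK n) d hdK).2 hd
    calc XKQ q lam n d (fun _ => regT d n) ≤ _ := this
      _ = _ := by ring
  have hx : Tendsto (fun n => xQ q lam n (regT d n)) atTop (𝓝 0) :=
    seq_zero3' (fun n => xQ q lam n (regT d n)) d (2 * c0) lam h0 h2 (by positivity)
      (fun n => xQ_nonneg hq h0 h1 n _) hstep
  have he : (fun n => aTV q d lam n) = fun n => aT q lam n (regT d n) :=
    funext fun n => (aT_regT q d lam n).symm
  rw [he]
  exact tendsto_of_sq_leQ hq _ _ (fun n => (aT_sq_leQ hq h0 h1 n _).1)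
    (fun n => (aT_sq_leQ hq h0 h1 n _).2) hx

/-- the two pointwise inequalities on `rho T × lam0 T` -/
structure Pt4R (rho lam0 k c0 : ℝ) (p1 p2 c1 c2 : (Fin 4 → ℝ) → ℝ) : Prop where
  X4 : ∀ a b, DT rho a → DT lam0 b →
    avQ (KQ alQ a) b ≤ alQ a + alQ b - p1 b * ps4 k a - p2 a * ps4 (k / lam0) b
      - c0 * (alQ a ^ 2 * alQ b + alQ a * alQ b ^ 2)
  C4 : ∀ a b, DT rho a → DT lam0 b →
    c1 b * ps4 k a + c2 a * ps4 (k / lam0) b ≤ avQ (KQ (ps4 k) a) b
  p1_nonneg : ∀ b, DT lam0 b → 0 ≤ p1 b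
  c1_nonneg : ∀ b, DT lam0 b → 0 ≤ c1 b
  p2_nonneg : ∀ a, DT rho a → 0 ≤ p2 a
  c2_nonneg : ∀ a, DT rho a → 0 ≤ c2 a

theorem cert4R_of_pointwise {rho lam0 k c0 : ℝ} {p1 p2 c1 c2 : (Fin 4 → ℝ) → ℝ}
    (P : Pt4R rho lam0 k c0 p1 p2 c1 c2) (hk0 : 0 ≤ k) (hk : k ≤ 2) (hl0 : 0 < lam0) (hl1 : lam0 ≤ 1)
    (hc : 0 ≤ c0) (lam : ℝ) (h0 : 0 ≤ lam) (h1 : lam ≤ lam0) : CertQR 4 lam c0 rho (ps4 k) := by
  refine ⟨(ps4_zero k).ge, leaf4 k lam hk, ?_, ?_⟩
  · intro ι κ _ _ w e v f hg hb hg' hi hi'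
    have hdt : ∀ x, DT rho (e x) := fun x => ⟨hg.zero x, hb x⟩
    have hs := hg'.scale lam h0 (h1.trans hl1)
    have key := merge_le_bilin hg hs alQ
      (![alQ, fun _ => 1, fun a => -(ps4 k a), fun a => -(p2 a), fun a => -(c0 * alQ a ^ 2),
        fun a => -(c0 * alQ a)] : Fin 6 → (Fin 4 → ℝ) → ℝ)
      (![fun _ => 1, alQ, p1, ps4 (k / lam0), alQ, fun b => alQ b ^ 2] : Fin 6 → (Fin 4 → ℝ) → ℝ)
      (fun x y => by
        have := P.X4 (e x) (fun i => lam * f y i) (hdt x) (hg'.dt_scale lam lam0 h0 h1 y)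
        simp only [Fin.sum_univ_six, Matrix.cons_val_zero, Matrix.cons_val_one, Matrix.cons_val]
        linarith)
    simp only [Fin.sum_univ_six, Matrix.cons_val_zero, Matrix.cons_val_one, Matrix.cons_val] at key
    rw [EQ_const hs, EQ_const hg, EQ_neg, EQ_neg, EQ_neg, EQ_neg, EQ_cmul, EQ_cmul] at key
    have hY : EQ v (fun η i => lam * f η i) alQ = lam ^ 2 * XQ v f := XQ_scale v f lam
    have e1 : 0 ≤ EQ v (fun η i => lam * f η i) p1 :=
      EQ_nonneg hs _ fun η => P.p1_nonneg _ (hg'.dt_scale lam lam0 h0 h1 η)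
    have e2 : 0 ≤ EQ w e p2 := EQ_nonneg hg _ fun η => P.p2_nonneg _ (hdt η)
    have e3 := EQ_ps4_msg hg' k lam lam0 hk0 h0 hl0 h1 hi'
    have j1 := hg.sq_EQ_le alQ
    have j2 := hs.sq_EQ_le alQ
    have x0 : 0 ≤ EQ w e alQ := hg.XQ_nonneg (by norm_num)
    have y0 : 0 ≤ EQ v (fun η i => lam * f η i) alQ := hs.XQ_nonneg (by norm_num)
    unfold XQ at *
    rw [← hY]
    set X := EQ w e alQ
    set Y := EQ v (fun η i => lam * f η i) alQ
    have t1 := mul_nonneg hi e1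
    have t2 := mul_nonneg e2 e3
    have t3 := mul_nonneg hc (mul_nonneg (sub_nonneg.2 j1) y0)
    have t4 := mul_nonneg hc (mul_nonneg x0 (sub_nonneg.2 j2))
    nlinarith
  · intro ι κ _ _ w e v f hg hb hg' hi hi'
    have hdt : ∀ x, DT rho (e x) := fun x => ⟨hg.zero x, hb x⟩
    have hs := hg'.scale lam h0 (h1.trans hl1)
    have key := merge_ge_bilin hg hs (ps4 k)
      (![ps4 k, c2] : Fin 2 → (Fin 4 → ℝ) → ℝ)
      (![c1, ps4 (k / lam0)] : Fin 2 → (Fin 4 → ℝ) → ℝ)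
      (fun x y => by
        have := P.C4 (e x) (fun i => lam * f y i) (hdt x) (hg'.dt_scale lam lam0 h0 h1 y)
        simp only [Fin.sum_univ_two, Matrix.cons_val_zero, Matrix.cons_val_one]
        linarith)
    simp only [Fin.sum_univ_two, Matrix.cons_val_zero, Matrix.cons_val_one] at key
    have e1 : 0 ≤ EQ v (fun η i => lam * f η i) c1 :=
      EQ_nonneg hs _ fun η => P.c1_nonneg _ (hg'.dt_scale lam lam0 h0 h1 η)
    have e2 : 0 ≤ EQ w e c2 := EQ_nonneg hg _ fun η => P.c2_nonneg _ (hdt η)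
    have e3 := EQ_ps4_msg hg' k lam lam0 hk0 h0 hl0 h1 hi'
    have t1 := mul_nonneg hi e1
    have t2 := mul_nonneg e2 e3
    linarith

/-- four colours, binary tree: the pointwise inequalities are needed only on `lam0 T × lam0 T` -/
theorem bin4_of_pointwise {lam0 k c0 : ℝ} {p1 p2 c1 c2 : (Fin 4 → ℝ) → ℝ}
    (P : Pt4R lam0 lam0 k c0 p1 p2 c1 c2) (hk0 : 0 ≤ k) (hk : k ≤ 2) (hl0 : 0 < lam0) (hl1 : lam0 ≤ 1)
    (hc : 0 < c0) (hc1 : c0 ≤ 1 / 3) (lam : ℝ) (h0 : 0 ≤ lam) (h1 : lam ≤ lam0)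
    (h2 : (2 : ℝ) * lam ^ 2 ≤ 1) : Tendsto (fun n => aTV 4 2 lam n) atTop (𝓝 0) := by
  have hB : ∀ j, j < 2 → AccB 4 lam lam0 j := by
    intro j hj
    rcases Nat.lt_or_ge j 1 with h | h
    · have : j = 0 := by omega
      subst this
      exact accB_zero (by norm_num) hl0.le
    · have : j = 1 := by omega
      subst this
      exact accB_one (by norm_num) h0 h1
  exact regQR_nonreconstruction (by norm_num) (cert4R_of_pointwise P hk0 hk hl0 hl1 hc.le lam h0 h1) hc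
    hc1 h0 2 hB 2 le_rfl le_rfl (by exact_mod_cast h2)

end Vale.Agent.P154
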