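import Vale.Agent.P154.Q4.CertG

/-!
# P154, four colours: the class function `ps5 k0 k5 = 2 m4 - k0 alQ^2 + k5 alQ m4`
-/

namespace Vale.Agent.P154

open Finset

noncomputable def ps5 (k0 k5 : ℝ) (a : Fin 4 → ℝ) : ℝ :=
  2 * m4 a - k0 * alQ a ^ 2 + k5 * (alQ a * m4 a)

theorem alQ4_eq (a : Fin 4 → ℝ) : alQ a = (a 0 ^ 2 + a 1 ^ 2 + a 2 ^ 2 + a 3 ^ 2) / 12 := by
  unfold alQ
  rw [Fin.sum_univ_four]
  norm_num

theorem m4_eq (a : Fin 4 → ℝ) : m4 a = (a 0 ^ 3 + a 1 ^ 3 + a 2 ^ 3 + a 3 ^ 3) / 24 := by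
  unfold m4
  rw [Fin.sum_univ_four]

theorem alQ4_nonneg (a : Fin 4 → ℝ) : 0 ≤ alQ a := by
  rw [alQ4_eq]
  positivity

/-- on the simplex the cubic invariant is at most the quadratic one -/
theorem m4_le_alQ (a : Fin 4 → ℝ) (ha : DT 1 a) : m4 a ≤ alQ a := by
  obtain ⟨hs, hg⟩ := ha
  rw [Fin.sum_univ_four] at hs
  rw [alQ4_eq, m4_eq]
  have h0 : 0 ≤ 1 + a 0 := by linarith [hg 0]
  have h1 : 0 ≤ 1 + a 1 := by linarith [hg 1]
  have h2 : 0 ≤ 1 + a 2 := by linarith [hg 2]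
  have h3 : 0 ≤ 1 + a 3 := by linarith [hg 3]
  have e3 : a 3 = -(a 0 + a 1 + a 2) := by linarith
  have t1 := mul_nonneg h0 (sq_nonneg (a 1 - a 2))
  have t2 := mul_nonneg h0 (sq_nonneg (a 1 - a 3))
  have t3 := mul_nonneg h0 (sq_nonneg (a 2 - a 3))
  have t4 := mul_nonneg h1 (sq_nonneg (a 0 - a 2))
  have t5 := mul_nonneg h1 (sq_nonneg (a 0 - a 3))
  have t6 := mul_nonneg h1 (sq_nonneg (a 2 - a 3))
  have t7 := mul_nonneg h2 (sq_nonneg (a 0 - a 1))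
  have t8 := mul_nonneg h2 (sq_nonneg (a 0 - a 3))
  have t9 := mul_nonneg h2 (sq_nonneg (a 1 - a 3))
  have t10 := mul_nonneg h3 (sq_nonneg (a 0 - a 1))
  have t11 := mul_nonneg h3 (sq_nonneg (a 0 - a 2))
  have t12 := mul_nonneg h3 (sq_nonneg (a 1 - a 2))
  rw [e3] at *
  nlinarith

theorem cls5 (k0 k5 : ℝ) (h5 : 0 ≤ k5) (h05 : 2 * k5 ≤ k0) (hv : k0 ≤ 2 + k5) : ClsG (ps5 k0 k5) := by
  refine ⟨?_, ?_, ?_⟩
  · unfold ps5 m4
    rw [alQ_zero]
    simp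
  · intro x
    have hm : m4 (fun i : Fin 4 => 4 * (if x = i then 1 else 0) - 1) = 1 := by
      unfold m4
      fin_cases x <;> simp [Fin.sum_univ_four] <;> norm_num
    have ha : alQ (fun i : Fin 4 => (4 : ℝ) * (if x = i then 1 else 0) - 1) = 1 := by
      unfold alQ
      fin_cases x <;> simp [Fin.sum_univ_four] <;> norm_num
    unfold ps5
    rw [hm, ha]
    linarith
  · intro lam a h0 h1 ha
    unfold ps5
    rw [m4_smul, alQ_smul]
    have hm := m4_le_alQ a ha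
    have hα := alQ4_nonneg a
    set α := alQ a
    set m := m4 a
    have key : 0 ≤ k0 * α - k5 * (1 + lam) * m := by
      have h6 : k5 * (1 + lam) * m ≤ k5 * (1 + lam) * α :=
        mul_le_mul_of_nonneg_left hm (by positivity)
      have h7 : k5 * (1 + lam) * α ≤ k0 * α := by
        apply mul_le_mul_of_nonneg_right _ hα
        nlinarith
      linarith
    have h8 : 0 ≤ lam ^ 3 * (1 - lam) * α * (k0 * α - k5 * (1 + lam) * m) := by
      have : 0 ≤ 1 - lam := by linarith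
      positivity
    nlinarith

end Vale.Agent.P154
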