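import Vale.Agent.P154.Q4.Cls5

/-!
# P154, four colours: class functions of degree six

`ps6 k k3 k5 k6 = 2 m4 - k alQ^2 + k3 alQ^3 + k5 alQ m4 + k6 m4^2`, elementary bounds for `alQ`, `m4` on the simplex and the
structure `ClsG` (centre, vertices, channel step) under an explicit condition on the coefficients.
-/

namespace Vale.Agent.P154

open Finset

noncomputable def ps6 (k k3 k5 k6 : ℝ) (a : Fin 4 → ℝ) : ℝ :=
  2 * m4 a - k * alQ a ^ 2 + k3 * alQ a ^ 3 + k5 * (alQ a * m4 a) + k6 * m4 a ^ 2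

theorem ps6_eq_ps5 (k0 k5 : ℝ) (a : Fin 4 → ℝ) : ps6 k0 0 k5 0 a = ps5 k0 k5 a := by
  unfold ps6 ps5
  ring

/-- on the simplex the quadratic invariant is at most one -/
theorem alQ4_le_one (a : Fin 4 → ℝ) (ha : DT 1 a) : alQ a ≤ 1 := by
  obtain ⟨hs, hg⟩ := ha
  rw [Fin.sum_univ_four] at hs
  rw [alQ4_eq]
  have h0 : 0 ≤ 1 + a 0 := by linarith [hg 0]
  have h1 : 0 ≤ 1 + a 1 := by linarith [hg 1]
  have h2 : 0 ≤ 1 + a 2 := by linarith [hg 2]
  have h3 : 0 ≤ 1 + a 3 := by linarith [hg 3]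
  have t1 := mul_nonneg h0 h1
  have t2 := mul_nonneg h0 h2
  have t3 := mul_nonneg h0 h3
  have t4 := mul_nonneg h1 h2
  have t5 := mul_nonneg h1 h3
  have t6 := mul_nonneg h2 h3
  have e : (a 0 + a 1 + a 2 + a 3) ^ 2 = 0 := by rw [hs]; ring
  nlinarith

/-- on the simplex the cubic invariant is at least minus the quadratic one -/
theorem neg_alQ_le_m4 (a : Fin 4 → ℝ) (ha : DT 1 a) : -alQ a ≤ m4 a := by
  obtain ⟨_, hg⟩ := ha
  rw [alQ4_eq, m4_eq]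
  have t : ∀ i, 0 ≤ a i ^ 2 * (a i + 2) := fun i =>
    mul_nonneg (sq_nonneg _) (by linarith [hg i])
  have t0 := t 0
  have t1 := t 1
  have t2 := t 2
  have t3 := t 3
  nlinarith

theorem abs_m4_le_alQ (a : Fin 4 → ℝ) (ha : DT 1 a) : |m4 a| ≤ alQ a :=
  abs_le.2 ⟨neg_alQ_le_m4 a ha, m4_le_alQ a ha⟩

theorem amgmQ3 {U V W : ℝ} (hU : 0 ≤ U) (hV : 0 ≤ V) (hW : 0 ≤ W) :
    27 * (U * V * W) ≤ (U + V + W) ^ 3 := by
  have s : 0 ≤ U + V + W := by positivity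
  nlinarith [mul_nonneg hU (sq_nonneg (V - W)), mul_nonneg hV (sq_nonneg (U - W)),
    mul_nonneg hW (sq_nonneg (U - V)), mul_nonneg s (sq_nonneg (U - V)),
    mul_nonneg s (sq_nonneg (V - W)), mul_nonneg s (sq_nonneg (U - W))]

/-- for vectors of sum zero: `m4 ^ 2 ≤ alQ ^ 3` (equality at the vertices). In the coordinates
`u = (a0 + a1 - a2 - a3) / 2`, `v`, `w` one has `∑ a^2 = u^2 + v^2 + w^2` and `∑ a^3 = 3 u v w`. -/
theorem m4_sq_le_alQ_cube (a : Fin 4 → ℝ) (hs : ∑ i, a i = 0) : m4 a ^ 2 ≤ alQ a ^ 3 := by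
  rw [Fin.sum_univ_four] at hs
  rw [alQ4_eq, m4_eq]
  have e3 : a 3 = -(a 0 + a 1 + a 2) := by linarith
  set u : ℝ := a 0 + a 1 with hu
  set v : ℝ := a 0 + a 2 with hv
  set w : ℝ := -(a 1 + a 2) with hw
  have p2 : a 0 ^ 2 + a 1 ^ 2 + a 2 ^ 2 + a 3 ^ 2 = u ^ 2 + v ^ 2 + w ^ 2 := by
    rw [e3, hu, hv, hw]; ring
  have p3 : a 0 ^ 3 + a 1 ^ 3 + a 2 ^ 3 + a 3 ^ 3 = 3 * (u * v * w) := by
    rw [e3, hu, hv, hw]; ring
  rw [p2, p3]
  have h := amgmQ3 (sq_nonneg u) (sq_nonneg v) (sq_nonneg w)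
  have e1 : (3 * (u * v * w) / 24) ^ 2 = 27 * (u ^ 2 * v ^ 2 * w ^ 2) / 1728 := by ring
  have e2 : ((u ^ 2 + v ^ 2 + w ^ 2) / 12) ^ 3 = (u ^ 2 + v ^ 2 + w ^ 2) ^ 3 / 1728 := by ring
  rw [e1, e2]
  exact div_le_div_of_nonneg_right h (by norm_num)

theorem m4_sq_le_alQ_sq (a : Fin 4 → ℝ) (ha : DT 1 a) : m4 a ^ 2 ≤ alQ a ^ 2 := by
  have h := abs_m4_le_alQ a ha
  have := pow_le_pow_left₀ (abs_nonneg _) h 2
  rwa [sq_abs] at this

/-- the channel bracket -/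
theorem channel_bracket (k k3 k5 k6 α m lam : ℝ) (h0 : 0 ≤ lam) (h1 : lam ≤ 1) (hα0 : 0 ≤ α)
    (hα1 : α ≤ 1) (hm : |m| ≤ α) (hc : 3 * max k3 0 + 2 * |k5| + 3 * max k6 0 ≤ k) :
    0 ≤ k * α ^ 2 - k3 * (1 + lam + lam ^ 2) * α ^ 3 - k5 * (1 + lam) * (α * m)
      - k6 * (1 + lam + lam ^ 2) * m ^ 2 := by
  have hv0 : 0 ≤ 1 + lam + lam ^ 2 := by positivity
  have hv3 : 1 + lam + lam ^ 2 ≤ 3 := by nlinarith
  have hu0 : 0 ≤ 1 + lam := by positivity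
  have hu2 : 1 + lam ≤ 2 := by linarith
  have hα2 : 0 ≤ α ^ 2 := by positivity
  have hα3 : α ^ 3 ≤ α ^ 2 := by
    have : α ^ 3 = α ^ 2 * α := by ring
    rw [this]
    exact mul_le_of_le_one_right hα2 hα1
  have hα30 : 0 ≤ α ^ 3 := by positivity
  have hm2 : m ^ 2 ≤ α ^ 2 := by
    have := pow_le_pow_left₀ (abs_nonneg _) hm 2
    rwa [sq_abs] at this
  have b3 : k3 * (1 + lam + lam ^ 2) * α ^ 3 ≤ 3 * max k3 0 * α ^ 2 := by
    calc k3 * (1 + lam + lam ^ 2) * α ^ 3 ≤ max k3 0 * (1 + lam + lam ^ 2) * α ^ 3 := by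
          gcongr
          exact le_max_left _ _
      _ ≤ max k3 0 * 3 * α ^ 2 := by
          have : 0 ≤ max k3 0 := le_max_right _ _
          gcongr
      _ = _ := by ring
  have b6 : k6 * (1 + lam + lam ^ 2) * m ^ 2 ≤ 3 * max k6 0 * α ^ 2 := by
    calc k6 * (1 + lam + lam ^ 2) * m ^ 2 ≤ max k6 0 * (1 + lam + lam ^ 2) * m ^ 2 := by
          gcongr
          exact le_max_left _ _
      _ ≤ max k6 0 * 3 * α ^ 2 := by
          have : 0 ≤ max k6 0 := le_max_right _ _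
          gcongr
      _ = _ := by ring
  have b5 : k5 * (1 + lam) * (α * m) ≤ 2 * |k5| * α ^ 2 := by
    calc k5 * (1 + lam) * (α * m) ≤ |k5 * (1 + lam) * (α * m)| := le_abs_self _
      _ = |k5| * (1 + lam) * (α * |m|) := by
          rw [abs_mul, abs_mul, abs_mul, abs_of_nonneg hu0, abs_of_nonneg hα0]
      _ ≤ |k5| * 2 * (α * α) := by
          have : 0 ≤ |k5| := abs_nonneg _
          gcongr
      _ = _ := by ring
  have hk : (3 * max k3 0 + 2 * |k5| + 3 * max k6 0) * α ^ 2 ≤ k * α ^ 2 :=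
    mul_le_mul_of_nonneg_right hc hα2
  nlinarith

theorem cls6 (k k3 k5 k6 : ℝ) (hv : k ≤ 2 + k3 + k5 + k6)
    (hc : 3 * max k3 0 + 2 * |k5| + 3 * max k6 0 ≤ k) : ClsG (ps6 k k3 k5 k6) := by
  refine ⟨?_, ?_, ?_⟩
  · unfold ps6 m4
    rw [alQ_zero]
    simp
  · intro x
    have hm : m4 (fun i : Fin 4 => 4 * (if x = i then 1 else 0) - 1) = 1 := by
      unfold m4
      fin_cases x <;> simp [Fin.sum_univ_four] <;> norm_num
    have ha : alQ (fun i : Fin 4 => (4 : ℝ) * (if x = i then 1 else 0) - 1) = 1 := by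
      unfold alQ
      fin_cases x <;> simp [Fin.sum_univ_four] <;> norm_num
    unfold ps6
    rw [hm, ha]
    linarith
  · intro lam a h0 h1 ha
    unfold ps6
    rw [m4_smul, alQ_smul]
    have hb := channel_bracket k k3 k5 k6 (alQ a) (m4 a) lam h0 h1 (alQ4_nonneg a)
      (alQ4_le_one a ha) (abs_m4_le_alQ a ha) hc
    set α := alQ a
    set m := m4 a
    have h8 : 0 ≤ lam ^ 3 * (1 - lam) * (k * α ^ 2 - k3 * (1 + lam + lam ^ 2) * α ^ 3
        - k5 * (1 + lam) * (α * m) - k6 * (1 + lam + lam ^ 2) * m ^ 2) := by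
      have : 0 ≤ 1 - lam := by linarith
      positivity
    nlinarith

/-- the instance proposed on the board: `2 m - 2.30 al^2 + 0.24 al^3 + 0.64 al m - 0.15 m^2`. -/
theorem cls6_runB : ClsG (ps6 (230 / 100) (24 / 100) (64 / 100) (-(15 / 100))) := by
  apply cls6
  · norm_num
  · rw [max_eq_left (by norm_num), max_eq_right (by norm_num), abs_of_nonneg (by norm_num)]
    norm_num

end Vale.Agent.P154
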