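import Vale.Agent.P154.GW.Defs

/-!
# P154, general number of colours `q`: finite symmetric experiments (definitions)

A posterior on `q` colours is written `(1 + e i) / q` with `∑ i, e i = 0`, `e i ≥ -1` (`e` = deviation vector).
A finite experiment is a finite family of deviation vectors `e η` with weights `w η`.
* `GoodQ q w e`: positive weights of total mass one, deviations sum to zero and are `≥ -1`, and the law of the deviation vector is invariant
  under all permutations of the colours.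
* `EQ w e f = ∑ η, w η * f (e η)`: expectation of a function of the deviation vector.
* `ZQ a b`, `mgQ a b`: normalisation and deviation vector obtained by combining two independent observations with deviations `a`, `b`.
* `KQ f a b = ZQ a b * f (mgQ a b)`; `avQ g b`: average of `g` over the `q!` permutations of `b`.
* `wMQ`, `eMQ`: the experiment that observes two independent experiments.
* `sDQ`, `wDQ`, `eDQ`: the experiment that observes `k` independent experiments.
* `alQ e = (∑ e i ^ 2) / (q (q - 1))` (equal to `1` at the vertices of the simplex), `XQ w e` its expectation.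
-/

namespace Vale.Agent.P154

open Finset

structure GoodQ (q : ℕ) {ι : Type} [Fintype ι] (w : ι → ℝ) (e : ι → Fin q → ℝ) : Prop where
  pos : ∀ η, 0 < w η
  tot : ∑ η, w η = 1
  zero : ∀ η, ∑ i, e η i = 0
  ge : ∀ η i, -1 ≤ e η i
  sym : ∀ (σ : Equiv.Perm (Fin q)) (f : (Fin q → ℝ) → ℝ),
    ∑ η, w η * f (fun i => e η (σ i)) = ∑ η, w η * f (e η)

noncomputable def EQ {q : ℕ} {ι : Type} [Fintype ι] (w : ι → ℝ) (e : ι → Fin q → ℝ)
    (f : (Fin q → ℝ) → ℝ) : ℝ :=
  ∑ η, w η * f (e η)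

noncomputable def ZQ {q : ℕ} (a b : Fin q → ℝ) : ℝ := (∑ i, (1 + a i) * (1 + b i)) / q

noncomputable def mgQ {q : ℕ} (a b : Fin q → ℝ) (i : Fin q) : ℝ := (1 + a i) * (1 + b i) / ZQ a b - 1

noncomputable def KQ {q : ℕ} (f : (Fin q → ℝ) → ℝ) (a b : Fin q → ℝ) : ℝ := ZQ a b * f (mgQ a b)

noncomputable def avQ {q : ℕ} (g : (Fin q → ℝ) → ℝ) (b : Fin q → ℝ) : ℝ :=
  (∑ σ : Equiv.Perm (Fin q), g (fun i => b (σ i))) / (Nat.factorial q : ℝ)

noncomputable def wMQ {q : ℕ} {ι κ : Type} (w : ι → ℝ) (e : ι → Fin q → ℝ) (v : κ → ℝ)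
    (f : κ → Fin q → ℝ) (p : ι × κ) : ℝ :=
  w p.1 * v p.2 * ZQ (e p.1) (f p.2)

noncomputable def eMQ {q : ℕ} {ι κ : Type} (e : ι → Fin q → ℝ) (f : κ → Fin q → ℝ) (p : ι × κ) :
    Fin q → ℝ :=
  mgQ (e p.1) (f p.2)

noncomputable def sDQ {q k : ℕ} {F : Fin k → Type} (E : ∀ j, F j → Fin q → ℝ) (η : ∀ j, F j) : ℝ :=
  (∑ i : Fin q, ∏ j, (1 + E j (η j) i)) / q

noncomputable def wDQ {q k : ℕ} {F : Fin k → Type} (W : ∀ j, F j → ℝ) (E : ∀ j, F j → Fin q → ℝ)
    (η : ∀ j, F j) : ℝ :=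
  (∏ j, W j (η j)) * sDQ E η

noncomputable def eDQ {q k : ℕ} {F : Fin k → Type} (E : ∀ j, F j → Fin q → ℝ) (η : ∀ j, F j)
    (i : Fin q) : ℝ :=
  (∏ j, (1 + E j (η j) i)) / sDQ E η - 1

noncomputable def alQ {q : ℕ} (e : Fin q → ℝ) : ℝ := (∑ i, e i ^ 2) / ((q : ℝ) * ((q : ℝ) - 1))

noncomputable def XQ {q : ℕ} {ι : Type} [Fintype ι] (w : ι → ℝ) (e : ι → Fin q → ℝ) : ℝ := EQ w e alQ

/-- deviation of the posterior of the root on the fixed tree `T` -/
noncomputable def evQ (q : ℕ) (lam : ℝ) (n : ℕ) (T : GT n) (η : ConfT q n T) (i : Fin q) : ℝ :=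
  q * postT q lam n T i η - 1

end Vale.Agent.P154
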