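import Vale.Agent.P154.Q4.Bin4
import Vale.Agent.P154.GW.Ext2

/-!
# P154, four colours: assembly of the nonreconstruction statements from the pointwise inequalities

* `four_regular`: `Pt4` on `T × (3/5) T` and `Pt4B` on `(5/7) T × (5/7) T` give `aTV 4 d lam n → 0` for all `d ≥ 2`, `lam ≥ 0`, `d lam^2 ≤ 1`.
* `four_poisson`: `Pt4` on `T × (3/5) T` gives `aGW 4 d lam n → 0` for `d ≥ 25/9` or `d ≤ 1`, `0 ≤ lam ≤ 1`, `d lam^2 ≤ 1`.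
-/

namespace Vale.Agent.P154

open Filter Topology

theorem potts4_nonneg (lam : ℝ) (h0 : 0 ≤ lam) (h1 : lam ≤ 1) (i j : Fin 4) : 0 ≤ potts 4 lam i j := by
  unfold potts
  split_ifs <;> push_cast <;> linarith

theorem four_regular {k c0 k' c0' : ℝ} {p1 p2 c1 c2 p1' p2' c1' c2' : (Fin 4 → ℝ) → ℝ}
    (P : Pt4 (3 / 5) k c0 p1 p2 c1 c2) (hk0 : 0 ≤ k) (hk : k ≤ 2) (hc : 0 < c0) (hc1 : c0 ≤ 1 / 3)
    (PB : Pt4B (5 / 7) k' c0' p1' p2' c1' c2') (hk0' : 0 ≤ k') (hk' : k' ≤ 2) (hc' : 0 < c0')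
    (d : ℕ) (lam : ℝ) (hd : 2 ≤ d) (h0 : 0 ≤ lam) (h2 : (d : ℝ) * lam ^ 2 ≤ 1) :
    Tendsto (fun n => aTV 4 d lam n) atTop (𝓝 0) := by
  rcases Nat.lt_or_ge d 3 with h | h
  · have hd2 : d = 2 := by omega
    subst hd2
    have h2' : (2 : ℝ) * lam ^ 2 ≤ 1 := by exact_mod_cast h2
    have hl : lam ≤ 5 / 7 := by nlinarith
    exact bin4_of_pointwiseB PB hk0' hk' (by norm_num) (by norm_num) hc' lam h0 hl h2'
  · have hd3 : (3 : ℝ) ≤ d := by exact_mod_cast h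
    have hl : lam ≤ 3 / 5 := by nlinarith [sq_nonneg lam]
    exact reg4_of_pointwise P hk0 hk (by norm_num) (by norm_num) hc hc1 lam h0 hl d hd h2

theorem four_poisson {k c0 : ℝ} {p1 p2 c1 c2 : (Fin 4 → ℝ) → ℝ}
    (P : Pt4 (3 / 5) k c0 p1 p2 c1 c2) (hk0 : 0 ≤ k) (hk : k ≤ 2) (hc : 0 < c0) (hc1 : c0 ≤ 1 / 3)
    (d lam : ℝ) (hd : 0 < d) (hr : d ≤ 1 ∨ 25 / 9 ≤ d) (h0 : 0 ≤ lam) (h1 : lam ≤ 1)
    (h2 : d * lam ^ 2 ≤ 1) : Tendsto (fun n => aGW 4 d lam n) atTop (𝓝 0) := by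
  rcases hr with h | h
  · exact gw_extinct 4 (by norm_num) d lam hd.le h (potts4_nonneg lam h0 h1)
  · have hl : lam ≤ 3 / 5 := by nlinarith [sq_nonneg lam]
    exact gw4_of_pointwise P hk0 hk (by norm_num) (by norm_num) hc hc1 lam h0 hl d hd h2

end Vale.Agent.P154
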