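import Vale.Agent.P154.R4.CertA
import Vale.Agent.P154.Q4.Thresh57

/-!
# P154, four colours: the structure `Pt4` from the pointwise inequalities written with `psK`
-/

namespace Vale.Agent.P154

open Finset

theorem pt4_of_keys (k c0 : ℝ) (pM c1 c2 : (Fin 4 → ℝ) → ℝ)
    (hpM : ∀ a : Fin 4 → ℝ, ∑ i, a i = 0 → (∀ i, -1 ≤ a i) → 0 ≤ pM a)
    (hc1 : ∀ b : Fin 4 → ℝ, ∑ i, b i = 0 → (∀ i, -(3 / 5) ≤ b i) → 0 ≤ c1 b)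
    (hc2 : ∀ a : Fin 4 → ℝ, ∑ i, a i = 0 → (∀ i, -1 ≤ a i) → 0 ≤ c2 a)
    (HX : ∀ a b : Fin 4 → ℝ, ∑ i, a i = 0 → (∀ i, -1 ≤ a i) → ∑ i, b i = 0 → (∀ i, -(3 / 5) ≤ b i) →
      avQ (KQ alQ a) b ≤ alQ a + alQ b - pM b * psK k a - pM a * psK (5 * k / 3) b
        - c0 * (alQ a ^ 2 * alQ b + alQ a * alQ b ^ 2))
    (HC : ∀ a b : Fin 4 → ℝ, ∑ i, a i = 0 → (∀ i, -1 ≤ a i) → ∑ i, b i = 0 → (∀ i, -(3 / 5) ≤ b i) →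
      c1 b * psK k a + c2 a * psK (5 * k / 3) b ≤ avQ (KQ (psK k) a) b) :
    Pt4 (3 / 5) k c0 pM pM c1 c2 := by
  have hk' : k / (3 / 5) = 5 * k / 3 := by ring
  refine ⟨?_, ?_, ?_, ?_, ?_, ?_⟩
  · intro a b ha hb
    rw [hk', ← psK_eq_ps4, ← psK_eq_ps4]
    exact HX a b ha.1 ha.2 hb.1 hb.2
  · intro a b ha hb
    rw [hk', ← psK_eq_ps4, ← psK_eq_ps4]
    exact HC a b ha.1 ha.2 hb.1 hb.2
  · intro b hb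
    exact hpM b hb.1 fun i => by
      have := hb.2 i
      linarith
  · intro b hb
    exact hc1 b hb.1 hb.2
  · intro a ha
    exact hpM a ha.1 ha.2
  · intro a ha
    exact hc2 a ha.1 ha.2

/-- the same on `T × (5/7) T`, with two different multipliers in the first inequality -/
theorem pt4_of_keys57 (k c0 : ℝ) (p1 p2 c1 c2 : (Fin 4 → ℝ) → ℝ)
    (hp1 : ∀ b : Fin 4 → ℝ, ∑ i, b i = 0 → (∀ i, -(5 / 7) ≤ b i) → 0 ≤ p1 b)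
    (hp2 : ∀ a : Fin 4 → ℝ, ∑ i, a i = 0 → (∀ i, -1 ≤ a i) → 0 ≤ p2 a)
    (hc1 : ∀ b : Fin 4 → ℝ, ∑ i, b i = 0 → (∀ i, -(5 / 7) ≤ b i) → 0 ≤ c1 b)
    (hc2 : ∀ a : Fin 4 → ℝ, ∑ i, a i = 0 → (∀ i, -1 ≤ a i) → 0 ≤ c2 a)
    (HX : ∀ a b : Fin 4 → ℝ, ∑ i, a i = 0 → (∀ i, -1 ≤ a i) → ∑ i, b i = 0 → (∀ i, -(5 / 7) ≤ b i) →
      avQ (KQ alQ a) b ≤ alQ a + alQ b - p1 b * psK k a - p2 a * psK (7 * k / 5) b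
        - c0 * (alQ a ^ 2 * alQ b + alQ a * alQ b ^ 2))
    (HC : ∀ a b : Fin 4 → ℝ, ∑ i, a i = 0 → (∀ i, -1 ≤ a i) → ∑ i, b i = 0 → (∀ i, -(5 / 7) ≤ b i) →
      c1 b * psK k a + c2 a * psK (7 * k / 5) b ≤ avQ (KQ (psK k) a) b) :
    Pt4 (5 / 7) k c0 p1 p2 c1 c2 := by
  have hk' : k / (5 / 7) = 7 * k / 5 := by ring
  refine ⟨?_, ?_, ?_, ?_, ?_, ?_⟩
  · intro a b ha hb
    rw [hk', ← psK_eq_ps4, ← psK_eq_ps4]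
    exact HX a b ha.1 ha.2 hb.1 hb.2
  · intro a b ha hb
    rw [hk', ← psK_eq_ps4, ← psK_eq_ps4]
    exact HC a b ha.1 ha.2 hb.1 hb.2
  · intro b hb
    exact hp1 b hb.1 hb.2
  · intro b hb
    exact hc1 b hb.1 hb.2
  · intro a ha
    exact hp2 a ha.1 ha.2
  · intro a ha
    exact hc2 a ha.1 ha.2

end Vale.Agent.P154
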