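import Vale.Agent.P154.GW.SumC

/-!
# P154: sums over a Poisson number of independent copies, cubic gain (abstract, no trees)

Same setting as `GW/SumC.lean`; the step inequality has a cubic gain
`X (k+1) c ≤ X k (tail c) + y (c 0) - c0 (X k (tail c)^2 y (c 0) + X k (tail c) y (c 0)^2)`.
Only the gain of the second merge is used: `X 2 c ≤ y0 + y1 - c0 (y1^2 y0 + y1 y0^2)`, `X k c ≤ ∑ y (c j)`.
-/

namespace Vale.Agent.P154

open Finset

variable {α : Type} {p : α → ℝ}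

theorem hasSum_fin1 {f : α → ℝ} {s : ℝ} (hf : HasSum f s) :
    HasSum (fun c : Fin 1 → α => f (c 0)) s := by
  rw [← (Equiv.funUnique (Fin 1) α).symm.hasSum_iff]
  exact hf

/-- Jensen for weighted series -/
theorem tsum_sq_le (hp0 : ∀ a, 0 ≤ p a) (hp1 : HasSum p 1) (y : α → ℝ) (hy0 : ∀ a, 0 ≤ y a)
    (hy1 : ∀ a, y a ≤ 1) : (∑' a, p a * y a) ^ 2 ≤ ∑' a, p a * y a ^ 2 := by
  set Y := ∑' a, p a * y a with hY
  have hYs := (summable_wt hp0 hp1.summable hy0 hy1).hasSum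
  have hy20 : ∀ a, 0 ≤ y a ^ 2 := fun a => sq_nonneg _
  have hy21 : ∀ a, y a ^ 2 ≤ 1 := fun a => by nlinarith [hy0 a, hy1 a]
  have hY2s := (summable_wt hp0 hp1.summable hy20 hy21).hasSum
  have h := (hY2s.sub (hYs.mul_left (2 * Y))).add (hp1.mul_left (Y ^ 2))
  have hnn : 0 ≤ (∑' a, p a * y a ^ 2) - 2 * Y * Y + Y ^ 2 * 1 := by
    refine h.nonneg fun a => ?_
    have : p a * y a ^ 2 - 2 * Y * (p a * y a) + Y ^ 2 * p a = p a * (y a - Y) ^ 2 := by ring
    rw [this]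
    exact mul_nonneg (hp0 a) (sq_nonneg _)
  nlinarith

theorem sig_le3 (hp0 : ∀ a, 0 ≤ p a) (hp1 : HasSum p 1) (d : ℝ) (hd : 0 ≤ d) (c0 : ℝ) (hc0 : 0 ≤ c0)
    (hc1 : c0 ≤ 1 / 3) (y : α → ℝ) (hy0 : ∀ a, 0 ≤ y a) (hy1 : ∀ a, y a ≤ 1)
    (X : (k : ℕ) → (Fin k → α) → ℝ) (hX0 : ∀ k c, 0 ≤ X k c) (hX1 : ∀ k c, X k c ≤ 1)
    (hzero : ∀ c, X 0 c = 0)
    (hstep : ∀ k (c : Fin (k + 1) → α),
      X (k + 1) c ≤ X k (Fin.tail c) + y (c 0)
        - c0 * (X k (Fin.tail c) ^ 2 * y (c 0) + X k (Fin.tail c) * y (c 0) ^ 2)) :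
    ∑' T : Σ k : ℕ, (Fin k → α), pois d T.1 * (∏ j, p (T.2 j)) * X T.1 T.2 ≤
      d * (∑' a, p a * y a) - pois d 2 * (2 * c0) * (∑' a, p a * y a) ^ 3 := by
  set Y := ∑' a, p a * y a with hY
  set M : ℕ → ℝ := fun k => ∑' c : Fin k → α, (∏ j, p (c j)) * X k c with hM
  have hY0 : 0 ≤ Y := tsum_wt_nonneg hp0 hy0
  have hY1 : Y ≤ 1 := tsum_wt_le_one hp0 hp1 hy0 hy1
  have hYs := (summable_wt hp0 hp1.summable hy0 hy1).hasSum
  have hpy0 : ∀ a, 0 ≤ p a * y a := fun a => mul_nonneg (hp0 a) (hy0 a)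
  have hM0 : ∀ k, 0 ≤ M k := fun k => tsum_wt_nonneg (prod_wt_nonneg hp0 k) (hX0 k)
  have hMz : M 0 = 0 := by
    simp only [hM, hzero, mul_zero, tsum_zero]
  -- crude step
  have hcr : ∀ k (c : Fin (k + 1) → α), X (k + 1) c ≤ X k (Fin.tail c) + y (c 0) := by
    intro k c
    have h1 := hstep k c
    have h2 : 0 ≤ c0 * (X k (Fin.tail c) ^ 2 * y (c 0) + X k (Fin.tail c) * y (c 0) ^ 2) := by
      have a := hX0 k (Fin.tail c)
      have b := hy0 (c 0)
      positivity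
    linarith
  have hMs : ∀ k, M (k + 1) ≤ M k + Y := by
    intro k
    have hw := pk_hasSum hp0 hp1 k
    have hw0 := prod_wt_nonneg hp0 k
    have hMk := (summable_wt hw0 hw.summable (hX0 k) (hX1 k)).hasSum
    have hwX0 : ∀ c : Fin k → α, 0 ≤ (∏ j, p (c j)) * X k c :=
      fun c => mul_nonneg (hw0 c) (hX0 k c)
    have T1 := hasSum_cons hYs hw hpy0 hw0
    have T2 := hasSum_cons hp1 hMk hp0 hwX0
    have T := T2.add T1
    have hL := (summable_wt (prod_wt_nonneg hp0 (k + 1)) (pk_hasSum hp0 hp1 (k + 1)).summable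
      (hX0 (k + 1)) (hX1 (k + 1))).hasSum
    have key := hasSum_le (fun c => ?_) hL T
    · simpa using key
    · have h1 := mul_le_mul_of_nonneg_left (hcr k c) (prod_wt_nonneg hp0 (k + 1) c)
      refine h1.trans (le_of_eq ?_)
      rw [prod_wt_succ]
      ring
  have hMk : ∀ k : ℕ, M k ≤ k * Y := by
    intro k
    induction k with
    | zero => simp [hMz]
    | succ k ih =>
      have h1 := hMs k
      push_cast
      linarith
  -- the second merge
  have hX2 : ∀ c : Fin 2 → α, X 2 c ≤ y (c 0) + y (c 1)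
      - c0 * (y (c 1) ^ 2 * y (c 0) + y (c 1) * y (c 0) ^ 2) := by
    intro c
    have h1 := hstep 1 c
    have h2 : X 1 (Fin.tail c) ≤ X 0 (Fin.tail (Fin.tail c)) + y (c 1) := hcr 0 (Fin.tail c)
    rw [hzero, zero_add] at h2
    have a0 := hX0 1 (Fin.tail c)
    have b0 := hy0 (c 0)
    have b1 := hy1 (c 0)
    have d0 := hy0 (c 1)
    have d1 := hy1 (c 1)
    set x1 := X 1 (Fin.tail c)
    set u := y (c 0)
    set t := y (c 1)
    have hmono : x1 - c0 * (x1 ^ 2 * u + x1 * u ^ 2) ≤ t - c0 * (t ^ 2 * u + t * u ^ 2) := by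
      have hfac : (t - c0 * (t ^ 2 * u + t * u ^ 2)) - (x1 - c0 * (x1 ^ 2 * u + x1 * u ^ 2)) =
          (t - x1) * (1 - c0 * ((t + x1) * u + u ^ 2)) := by ring
      have hb : c0 * ((t + x1) * u + u ^ 2) ≤ 1 := by
        have h5 : (t + x1) * u + u ^ 2 ≤ 3 := by nlinarith
        have h6 : 0 ≤ (t + x1) * u + u ^ 2 := by positivity
        nlinarith
      have := mul_nonneg (sub_nonneg.2 h2) (sub_nonneg.2 hb)
      linarith
    have h4 : X (1 + 1) c = X 2 c := rfl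
    rw [h4] at h1
    linarith
  have hy20 : ∀ a, 0 ≤ y a ^ 2 := fun a => sq_nonneg _
  have hy21 : ∀ a, y a ^ 2 ≤ 1 := fun a => by nlinarith [hy0 a, hy1 a]
  have hY2s := (summable_wt hp0 hp1.summable hy20 hy21).hasSum
  set Y2 := ∑' a, p a * y a ^ 2 with hY2
  have hJ : Y ^ 2 ≤ Y2 := tsum_sq_le hp0 hp1 y hy0 hy1
  have hpy20 : ∀ a, 0 ≤ p a * y a ^ 2 := fun a => mul_nonneg (hp0 a) (hy20 a)
  have hM2 : M 2 ≤ 2 * Y - 2 * c0 * Y ^ 3 := by
    have A1 := hasSum_cons (k := 1) hYs (hasSum_fin1 hp1) hpy0 (fun c => hp0 (c 0))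
    have A2 := hasSum_cons (k := 1) hp1 (hasSum_fin1 hYs) hp0 (fun c => hpy0 (c 0))
    have A3 := hasSum_cons (k := 1) hYs (hasSum_fin1 hY2s) hpy0 (fun c => hpy20 (c 0))
    have A4 := hasSum_cons (k := 1) hY2s (hasSum_fin1 hYs) hpy20 (fun c => hpy0 (c 0))
    have T := (A1.add A2).sub ((A3.add A4).mul_left c0)
    have hL := (summable_wt (prod_wt_nonneg hp0 2) (pk_hasSum hp0 hp1 2).summable
      (hX0 2) (hX1 2)).hasSum
    have key := hasSum_le (fun c => ?_) hL T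
    · have h7 : M 2 ≤ Y * 1 + 1 * Y - c0 * (Y * Y2 + Y2 * Y) := key
      have h8 : Y * Y ^ 2 ≤ Y * Y2 := mul_le_mul_of_nonneg_left hJ hY0
      nlinarith
    · have h1 := mul_le_mul_of_nonneg_left (hX2 c) (prod_wt_nonneg hp0 2 c)
      refine h1.trans (le_of_eq ?_)
      rw [Fin.prod_univ_two]
      have h3 : Fin.tail c 0 = c 1 := rfl
      simp only [h3]
      ring
  -- rewrite the left-hand side
  have hsig := sig_hasSum hp0 hp1 d hd
  have hsum : Summable (fun T : Σ k : ℕ, (Fin k → α) =>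
      pois d T.1 * (∏ j, p (T.2 j)) * X T.1 T.2) :=
    summable_wt (fun T => mul_nonneg (pois_nonneg d hd T.1) (prod_wt_nonneg hp0 T.1 T.2))
      hsig.summable (fun T => hX0 T.1 T.2) (fun T => hX1 T.1 T.2)
  have hfib : ∀ k : ℕ, HasSum (fun c : Fin k → α => pois d k * (∏ j, p (c j)) * X k c)
      (pois d k * M k) := by
    intro k
    have h := ((summable_wt (prod_wt_nonneg hp0 k) (pk_hasSum hp0 hp1 k).summable
      (hX0 k) (hX1 k)).hasSum).mul_left (pois d k)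
    simpa only [mul_assoc] using h
  have hL : HasSum (fun k : ℕ => pois d k * M k)
      (∑' T : Σ k : ℕ, (Fin k → α), pois d T.1 * (∏ j, p (T.2 j)) * X T.1 T.2) :=
    hsum.hasSum.sigma hfib
  have hR : HasSum (fun k : ℕ => pois d k * k * Y - (if k = 2 then pois d 2 * (2 * c0) * Y ^ 3 else 0))
      (d * Y - pois d 2 * (2 * c0) * Y ^ 3) :=
    ((pois_mean d).mul_right Y).sub (hasSum_ite_eq 2 (pois d 2 * (2 * c0) * Y ^ 3))
  refine hasSum_le (fun k => ?_) hL hR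
  have hpk := pois_nonneg d hd k
  by_cases hk : k = 2
  · subst hk
    simp only [if_true]
    have := mul_le_mul_of_nonneg_left hM2 hpk
    push_cast
    nlinarith
  · simp only [if_neg hk, sub_zero]
    have := mul_le_mul_of_nonneg_left (hMk k) hpk
    nlinarith

end Vale.Agent.P154
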