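import Vale.Agent.P154.Q4.CertQ
import Vale.Agent.P154.Q4.Sum3
import Vale.Agent.P154.GW.Reg

/-!
# P154, general `q`: a merging certificate gives nonreconstruction up to the Kesten-Stigum bound

Given `CertQ q lam c0 ps` with `0 < c0 ≤ 1/3`, `0 ≤ lam < 1`:
* `regQ_nonreconstruction`: `aTV q d lam n → 0` on the `d`-ary tree if `d lam^2 ≤ 1`, `d ≥ 2`;
* `gwQ_nonreconstruction`: `aGW q d lam n → 0` on the Poisson(`d`) tree if `d lam^2 ≤ 1`, `d > 0`.
-/

namespace Vale.Agent.P154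

open Finset Filter Topology

theorem seq_zero3 (x : ℕ → ℝ) (ρ c : ℝ) (hρ : ρ ≤ 1) (hc : 0 < c) (h0 : ∀ n, 0 ≤ x n)
    (hs : ∀ n, x (n + 1) ≤ ρ * x n - c * x n ^ 3) : Tendsto x atTop (𝓝 0) := by
  have hs' : ∀ n, x (n + 1) ≤ x n - c * x n ^ 3 := by
    intro n
    have h1 := hs n
    have h2 : ρ * x n ≤ 1 * x n := mul_le_mul_of_nonneg_right hρ (h0 n)
    linarith
  have hanti : Antitone x := by
    apply antitone_nat_of_succ_le
    intro n
    have := hs' n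
    have h2 : 0 ≤ c * x n ^ 3 := mul_nonneg hc.le (pow_nonneg (h0 n) 3)
    linarith
  have hbdd : BddBelow (Set.range x) := ⟨0, by rintro _ ⟨n, rfl⟩; exact h0 n⟩
  have hlim := tendsto_atTop_ciInf hanti hbdd
  set L := ⨅ i, x i with hL
  have hlim1 : Tendsto (fun n => x (n + 1)) atTop (𝓝 L) :=
    (tendsto_add_atTop_iff_nat 1).2 hlim
  have hlim2 : Tendsto (fun n => x n - c * x n ^ 3) atTop (𝓝 (L - c * L ^ 3)) :=
    hlim.sub ((hlim.pow 3).const_mul c)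
  have hle : L ≤ L - c * L ^ 3 := le_of_tendsto_of_tendsto' hlim1 hlim2 hs'
  have hLn : 0 ≤ L := ge_of_tendsto' hlim h0
  have hL0 : L = 0 := by
    by_contra hne
    have hpos : 0 < L := lt_of_le_of_ne hLn (Ne.symm hne)
    have : 0 < c * L ^ 3 := mul_pos hc (pow_pos hpos 3)
    linarith
  rw [hL0] at hlim
  exact hlim

/-- the same with the trivial case `lam = 0` included -/
theorem seq_zero3' (x : ℕ → ℝ) (ρ c lam : ℝ) (hl : 0 ≤ lam) (hρ : ρ * lam ^ 2 ≤ 1) (hc : 0 < c)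
    (h0 : ∀ n, 0 ≤ x n)
    (hs : ∀ n, x (n + 1) ≤ ρ * lam ^ 2 * x n - c * lam ^ 6 * x n ^ 3) : Tendsto x atTop (𝓝 0) := by
  rcases hl.eq_or_lt with h | h
  · have hz : ∀ n, x (n + 1) = 0 := by
      intro n
      have a := hs n
      rw [← h] at a
      apply le_antisymm _ (h0 (n + 1))
      simpa using a
    rw [← tendsto_add_atTop_iff_nat 1]
    simp only [hz]
    exact tendsto_const_nhds
  · exact seq_zero3 x (ρ * lam ^ 2) (c * lam ^ 6) hρ (by positivity) h0 hs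

variable {q : ℕ} {lam c0 : ℝ} {ps : (Fin q → ℝ) → ℝ}

/-- `k` equal children -/
theorem XKQ_const (hq : 2 ≤ q) (C : CertQ q lam c0 ps) (hc0 : 0 ≤ c0) (hc1 : c0 ≤ 1 / 3)
    (h0 : 0 ≤ lam) (h1 : lam < 1) (n : ℕ) (t : GT n) (k : ℕ) :
    XKQ q lam n k (fun _ => t) ≤ k * (lam ^ 2 * xQ q lam n t) ∧
      (2 ≤ k → XKQ q lam n k (fun _ => t) ≤
        k * (lam ^ 2 * xQ q lam n t) - 2 * c0 * (lam ^ 2 * xQ q lam n t) ^ 3) := by
  have hq0 : 0 < q := by omega
  have hx0 := xQ_nonneg hq h0 h1 n t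
  have hx1 := xQ_le_one hq h0 h1 n t
  have hy0 : 0 ≤ lam ^ 2 * xQ q lam n t := mul_nonneg (sq_nonneg lam) hx0
  have hy1 : lam ^ 2 * xQ q lam n t ≤ 1 := by nlinarith [sq_nonneg lam]
  induction k with
  | zero =>
    refine ⟨?_, fun h => by omega⟩
    rw [XKQ_zero hq0]
    simp
  | succ k ih =>
    obtain ⟨i1, i2⟩ := ih
    have hs := XKQ_succ hq0 C h0 h1 n k (fun _ => t)
    have htail : Fin.tail (fun _ : Fin (k + 1) => t) = fun _ : Fin k => t := rfl
    rw [htail] at hs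
    have hX0 := XKQ_nonneg hq h0 h1 n k (fun _ => t)
    have hX1 := XKQ_le_one hq h0 h1 n k (fun _ => t)
    set y := lam ^ 2 * xQ q lam n t with hy
    set X := XKQ q lam n k (fun _ => t) with hX
    have hgain : 0 ≤ c0 * (X ^ 2 * y + X * y ^ 2) := by positivity
    refine ⟨?_, fun hk => ?_⟩
    · push_cast
      linarith
    · push_cast
      rcases Nat.lt_or_ge k 2 with hlt | hge
      · have hk1 : k = 1 := by omega
        subst hk1
        push_cast at i1 ⊢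
        rw [one_mul] at i1
        have hfac : (y - c0 * (y ^ 2 * y + y * y ^ 2)) - (X - c0 * (X ^ 2 * y + X * y ^ 2)) =
            (y - X) * (1 - c0 * ((y + X) * y + y ^ 2)) := by ring
        have hb : c0 * ((y + X) * y + y ^ 2) ≤ 1 := by
          have h5 : (y + X) * y + y ^ 2 ≤ 3 := by nlinarith
          have h6 : 0 ≤ (y + X) * y + y ^ 2 := by positivity
          nlinarith
        have := mul_nonneg (sub_nonneg.2 i1) (sub_nonneg.2 hb)
        nlinarith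
      · have := i2 hge
        linarith

theorem xregQ_step (hq : 2 ≤ q) (C : CertQ q lam c0 ps) (hc0 : 0 ≤ c0) (hc1 : c0 ≤ 1 / 3)
    (h0 : 0 ≤ lam) (h1 : lam < 1) (d : ℕ) (hd : 2 ≤ d) (n : ℕ) :
    xQ q lam (n + 1) (regT d (n + 1)) ≤
      d * lam ^ 2 * xQ q lam n (regT d n) - 2 * c0 * lam ^ 6 * xQ q lam n (regT d n) ^ 3 := by
  rw [xQ_succ (by omega) h0 h1 n (regT d (n + 1))]
  have := (XKQ_const hq C hc0 hc1 h0 h1 n (regT d n) d).2 hd
  calc XKQ q lam n d (fun _ => regT d n) ≤ _ := this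
    _ = _ := by ring

theorem tendsto_of_sq_leQ (hq : 2 ≤ q) (a x : ℕ → ℝ) (ha : ∀ n, 0 ≤ a n)
    (h : ∀ n, a n ^ 2 ≤ ((q : ℝ) - 1) / 4 * x n) (hx : Tendsto x atTop (𝓝 0)) :
    Tendsto a atTop (𝓝 0) := by
  have h1 : Tendsto (fun n => Real.sqrt (((q : ℝ) - 1) / 4 * x n)) atTop (𝓝 0) := by
    have h2 : Tendsto (fun n => ((q : ℝ) - 1) / 4 * x n) atTop (𝓝 0) := by
      simpa using hx.const_mul (((q : ℝ) - 1) / 4)
    have h3 := (Real.continuous_sqrt.tendsto 0).comp h2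
    rw [Real.sqrt_zero] at h3
    exact h3
  apply squeeze_zero ha _ h1
  intro n
  exact Real.le_sqrt_of_sq_le (h n)

/-- nonreconstruction on the `d`-ary tree from a certificate -/
theorem regQ_nonreconstruction (hq : 2 ≤ q) (C : CertQ q lam c0 ps) (hc0 : 0 < c0) (hc1 : c0 ≤ 1 / 3)
    (h0 : 0 ≤ lam) (d : ℕ) (hd : 2 ≤ d) (h2 : (d : ℝ) * lam ^ 2 ≤ 1) :
    Tendsto (fun n => aTV q d lam n) atTop (𝓝 0) := by
  have hd2 : (2 : ℝ) ≤ d := by exact_mod_cast hd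
  have h1 : lam < 1 := by nlinarith [sq_nonneg lam]
  have hx : Tendsto (fun n => xQ q lam n (regT d n)) atTop (𝓝 0) :=
    seq_zero3' (fun n => xQ q lam n (regT d n)) d (2 * c0) lam h0 h2 (by positivity)
      (fun n => xQ_nonneg hq h0 h1 n _) (xregQ_step hq C hc0.le hc1 h0 h1 d hd)
  have he : (fun n => aTV q d lam n) = fun n => aT q lam n (regT d n) :=
    funext fun n => (aT_regT q d lam n).symm
  rw [he]
  exact tendsto_of_sq_leQ hq _ _ (fun n => (aT_sq_leQ hq h0 h1 n _).1)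
    (fun n => (aT_sq_leQ hq h0 h1 n _).2) hx

noncomputable def XGQ (q : ℕ) (d lam : ℝ) (n : ℕ) : ℝ := ∑' T : GT n, probT d n T * xQ q lam n T

theorem XGQ_nonneg (hq : 2 ≤ q) (d : ℝ) (hd : 0 ≤ d) (h0 : 0 ≤ lam) (h1 : lam < 1) (n : ℕ) :
    0 ≤ XGQ q d lam n := by
  unfold XGQ
  exact tsum_nonneg fun T => mul_nonneg (probT_nonneg d hd n T) (xQ_nonneg hq h0 h1 n T)

theorem XGQ_step (hq : 2 ≤ q) (C : CertQ q lam c0 ps) (hc0 : 0 ≤ c0) (hc1 : c0 ≤ 1 / 3) (d : ℝ)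
    (hd : 0 ≤ d) (h0 : 0 ≤ lam) (h1 : lam < 1) (n : ℕ) :
    XGQ q d lam (n + 1) ≤
      d * lam ^ 2 * XGQ q d lam n - pois d 2 * (2 * c0) * lam ^ 6 * XGQ q d lam n ^ 3 := by
  have hq0 : 0 < q := by omega
  have key := sig_le3 (probT_nonneg d hd n) (probT_hasSum d hd n) d hd c0 hc0 hc1
    (fun T => lam ^ 2 * xQ q lam n T)
    (fun T => mul_nonneg (sq_nonneg lam) (xQ_nonneg hq h0 h1 n T))
    (fun T => by
      have a := xQ_nonneg hq h0 h1 n T
      have b := xQ_le_one hq h0 h1 n T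
      nlinarith [sq_nonneg lam])
    (XKQ q lam n) (XKQ_nonneg hq h0 h1 n) (XKQ_le_one hq h0 h1 n) (XKQ_zero hq0 n)
    (XKQ_succ hq0 C h0 h1 n)
  have e1 : XGQ q d lam (n + 1) =
      ∑' T : Σ k : ℕ, (Fin k → GT n), pois d T.1 * (∏ j, probT d n (T.2 j)) * XKQ q lam n T.1 T.2 := by
    unfold XGQ
    refine tsum_congr fun T => ?_
    rw [xQ_succ hq0 h0 h1 n T]
    rfl
  have e2 : ∑' a, probT d n a * (lam ^ 2 * xQ q lam n a) = lam ^ 2 * XGQ q d lam n := by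
    unfold XGQ
    rw [← tsum_mul_left]
    refine tsum_congr fun T => ?_
    ring
  rw [e1]
  rw [e2] at key
  calc _ ≤ _ := key
    _ = _ := by ring

theorem XGQ_tendsto (hq : 2 ≤ q) (C : CertQ q lam c0 ps) (hc0 : 0 < c0) (hc1 : c0 ≤ 1 / 3) (d : ℝ)
    (hd : 0 < d) (h0 : 0 ≤ lam) (h1 : lam < 1) (h2 : d * lam ^ 2 ≤ 1) :
    Tendsto (XGQ q d lam) atTop (𝓝 0) := by
  have hp : 0 < pois d 2 := by
    unfold pois
    positivity
  exact seq_zero3' (XGQ q d lam) d (pois d 2 * (2 * c0)) lam h0 h2 (by positivity)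
    (XGQ_nonneg hq d hd.le h0 h1) (XGQ_step hq C hc0.le hc1 d hd.le h0 h1)

/-- nonreconstruction on the Poisson(`d`) tree from a certificate -/
theorem gwQ_nonreconstruction (hq : 2 ≤ q) (C : CertQ q lam c0 ps) (hc0 : 0 < c0) (hc1 : c0 ≤ 1 / 3)
    (d : ℝ) (hd : 0 < d) (h0 : 0 ≤ lam) (h1 : lam < 1) (h2 : d * lam ^ 2 ≤ 1) :
    Tendsto (fun n => aGW q d lam n) atTop (𝓝 0) := by
  have hq2 : (2 : ℝ) ≤ q := by exact_mod_cast hq
  have hqp : (0 : ℝ) < q := by linarith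
  have hj : ∀ n, 0 ≤ aGW q d lam n / q ∧ (aGW q d lam n / q) ^ 2 ≤ XGQ q d lam n / 2 := by
    intro n
    have h := jensen_sq (probT_nonneg d hd.le n) (probT_hasSum d hd.le n)
      (fun T => aT q lam n T / q) (xQ q lam n)
      (fun T => div_nonneg (aT_sq_leQ hq h0 h1 n T).1 hqp.le)
      (fun T => by
        have a := (aT_sq_leQ hq h0 h1 n T).2
        have b := xQ_nonneg hq h0 h1 n T
        rw [div_pow, div_le_iff₀ (by positivity)]
        nlinarith [mul_nonneg b hqp.le, mul_nonneg (mul_nonneg b hqp.le) hqp.le])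
      (xQ_le_one hq h0 h1 n)
    have e : ∑' T, probT d n T * (aT q lam n T / q) = aGW q d lam n / q := by
      unfold aGW
      rw [div_eq_mul_inv, ← tsum_mul_right]
      refine tsum_congr fun T => ?_
      ring
    rw [e] at h
    exact h
  have ht := tendsto_of_sq_le _ _ (fun n => (hj n).1) (fun n => (hj n).2)
    (XGQ_tendsto hq C hc0 hc1 d hd h0 h1 h2)
  have ht2 := ht.mul_const (q : ℝ)
  rw [zero_mul] at ht2
  refine ht2.congr fun n => ?_
  field_simp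

end Vale.Agent.P154
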