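import Vale.Agent.P154.Q4.DefsQ

/-!
# P154, general `q`: combining two experiments, the channel, averaging over permutations
-/

namespace Vale.Agent.P154

open Finset

variable {q : ℕ} {ι κ : Type} [Fintype ι] [Fintype κ] {w : ι → ℝ} {e : ι → Fin q → ℝ}
  {v : κ → ℝ} {f : κ → Fin q → ℝ}

theorem GoodQ.coord_eq (h : GoodQ q w e) (i j : Fin q) : ∑ η, w η * e η i = ∑ η, w η * e η j := by
  have := h.sym (Equiv.swap i j) (fun a => a i)
  simpa using this.symm

theorem GoodQ.mean_zero (h : GoodQ q w e) (i : Fin q) : ∑ η, w η * e η i = 0 := by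
  have h1 : ∑ j : Fin q, ∑ η, w η * e η j = 0 := by
    rw [Finset.sum_comm]
    refine Finset.sum_eq_zero fun η _ => ?_
    rw [← Finset.mul_sum, h.zero η, mul_zero]
  have h2 : ∑ j : Fin q, ∑ η, w η * e η j = (q : ℝ) * ∑ η, w η * e η i := by
    rw [Finset.sum_congr rfl (fun j _ => h.coord_eq j i)]
    simp
  have hq : (q : ℝ) ≠ 0 := by
    have : 0 < q := Fin.pos i
    positivity
  rw [h2] at h1
  exact (mul_eq_zero.1 h1).resolve_left hq

theorem ZQ_eq (hq : 0 < q) (a b : Fin q → ℝ) (ha : ∑ i, a i = 0) (hb : ∑ i, b i = 0) :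
    ZQ a b = 1 + (∑ i, a i * b i) / q := by
  have hq' : (q : ℝ) ≠ 0 := by positivity
  unfold ZQ
  have : ∑ i, (1 + a i) * (1 + b i) = (q : ℝ) + ∑ i, a i + ∑ i, b i + ∑ i, a i * b i := by
    have e1 : ∀ i, (1 + a i) * (1 + b i) = 1 + a i + b i + a i * b i := fun i => by ring
    simp only [e1, Finset.sum_add_distrib]
    simp
  rw [this, ha, hb]
  field_simp
  ring

theorem ZQ_pos (hq : 0 < q) (a b : Fin q → ℝ) (ha0 : ∑ i, a i = 0) (ha : ∀ i, -1 ≤ a i)
    (hb : ∀ i, -1 < b i) : 0 < ZQ a b := by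
  unfold ZQ
  apply div_pos _ (by positivity)
  have hnn : ∀ i ∈ (Finset.univ : Finset (Fin q)), 0 ≤ (1 + a i) * (1 + b i) := fun i _ =>
    mul_nonneg (by linarith [ha i]) (by linarith [hb i])
  have hex : ∃ i : Fin q, 0 < 1 + a i := by
    by_contra hcon
    push Not at hcon
    have h1 : ∑ i : Fin q, (1 + a i) ≤ 0 := Finset.sum_nonpos fun i _ => hcon i
    rw [Finset.sum_add_distrib, ha0] at h1
    simp at h1
    omega
  obtain ⟨i, hi⟩ := hex
  exact Finset.sum_pos' hnn ⟨i, Finset.mem_univ i, mul_pos hi (by linarith [hb i])⟩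

theorem ZQ_perm (σ : Equiv.Perm (Fin q)) (a b : Fin q → ℝ) :
    ZQ (fun i => a (σ i)) (fun i => b (σ i)) = ZQ a b := by
  unfold ZQ
  rw [Equiv.sum_comp σ (fun i => (1 + a i) * (1 + b i))]

theorem mgQ_perm (σ : Equiv.Perm (Fin q)) (a b : Fin q → ℝ) :
    mgQ (fun i => a (σ i)) (fun i => b (σ i)) = fun i => mgQ a b (σ i) := by
  funext i
  unfold mgQ
  rw [ZQ_perm]

theorem mgQ_sum (a b : Fin q → ℝ) (hZ : 0 < ZQ a b) : ∑ i, mgQ a b i = 0 := by
  unfold mgQ
  rw [Finset.sum_sub_distrib, ← Finset.sum_div]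
  have h1 : ∑ i, (1 + a i) * (1 + b i) = ZQ a b * q := by
    unfold ZQ
    by_cases hq : (q : ℝ) = 0
    · exfalso
      unfold ZQ at hZ
      rw [hq, div_zero] at hZ
      exact lt_irrefl _ hZ
    · field_simp
  rw [h1]
  have := hZ.ne'
  field_simp
  simp

/-- expectation of a function of the combined deviation as a double sum -/
theorem EQ_merge (w : ι → ℝ) (e : ι → Fin q → ℝ) (v : κ → ℝ) (f : κ → Fin q → ℝ)
    (F : (Fin q → ℝ) → ℝ) :
    EQ (wMQ w e v f) (eMQ e f) F = ∑ x, w x * ∑ y, v y * KQ F (e x) (f y) := by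
  unfold EQ
  rw [Fintype.sum_prod_type]
  refine Finset.sum_congr rfl fun x _ => ?_
  rw [Finset.mul_sum]
  refine Finset.sum_congr rfl fun y _ => ?_
  simp only [wMQ, eMQ, KQ]
  ring

/-- averaging over the permutations of the colours -/
theorem GoodQ.avg (h : GoodQ q w e) (g : (Fin q → ℝ) → ℝ) : EQ w e g = EQ w e (avQ g) := by
  unfold EQ avQ
  have hf : ((Nat.factorial q : ℕ) : ℝ) ≠ 0 := by positivity
  have h1 : ∑ η, w η * ((∑ σ : Equiv.Perm (Fin q), g (fun i => e η (σ i))) / (Nat.factorial q : ℝ)) =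
      (∑ σ : Equiv.Perm (Fin q), ∑ η, w η * g (fun i => e η (σ i))) / (Nat.factorial q : ℝ) := by
    rw [Finset.sum_comm, Finset.sum_div]
    refine Finset.sum_congr rfl fun η _ => ?_
    rw [← Finset.mul_sum]
    ring
  rw [h1, Finset.sum_congr rfl (fun σ _ => h.sym σ g)]
  simp [Fintype.card_perm]
  field_simp

/-- simultaneous permutation in a double sum -/
theorem GoodQ.sym2 (h : GoodQ q w e) (h' : GoodQ q v f) (σ : Equiv.Perm (Fin q))
    (H : (Fin q → ℝ) → (Fin q → ℝ) → ℝ) :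
    ∑ x, w x * ∑ y, v y * H (fun i => e x (σ i)) (fun i => f y (σ i)) =
      ∑ x, w x * ∑ y, v y * H (e x) (f y) := by
  calc ∑ x, w x * ∑ y, v y * H (fun i => e x (σ i)) (fun i => f y (σ i))
      = ∑ x, w x * ∑ y, v y * H (fun i => e x (σ i)) (f y) := by
        refine Finset.sum_congr rfl fun x _ => ?_
        rw [h'.sym σ (fun b => H (fun i => e x (σ i)) b)]
    _ = ∑ x, w x * ∑ y, v y * H (e x) (f y) :=
        h.sym σ (fun a => ∑ y, v y * H a (f y))

theorem GoodQ.merge (hq : 0 < q) (h : GoodQ q w e) (h' : GoodQ q v f) (hs : ∀ η i, -1 < f η i) :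
    GoodQ q (wMQ w e v f) (eMQ e f) := by
  have hZ : ∀ p : ι × κ, 0 < ZQ (e p.1) (f p.2) := fun p =>
    ZQ_pos hq _ _ (h.zero p.1) (h.ge p.1) (hs p.2)
  have hq' : (q : ℝ) ≠ 0 := by positivity
  refine ⟨fun p => mul_pos (mul_pos (h.pos _) (h'.pos _)) (hZ p), ?_, fun p => mgQ_sum _ _ (hZ p), ?_, ?_⟩
  · rw [Fintype.sum_prod_type]
    have key : ∀ x y, wMQ w e v f (x, y) = w x * v y + (∑ i, (w x * e x i) * (v y * f y i)) / q := by
      intro x y
      simp only [wMQ]
      rw [ZQ_eq hq _ _ (h.zero x) (h'.zero y), mul_add, mul_one, mul_div_assoc', Finset.mul_sum]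
      congr 2
      refine Finset.sum_congr rfl fun i _ => ?_
      ring
    have h2 : ∀ x, ∑ y, (∑ i, (w x * e x i) * (v y * f y i)) / (q : ℝ) = 0 := by
      intro x
      rw [← Finset.sum_div, Finset.sum_comm]
      have : ∀ i, ∑ y, (w x * e x i) * (v y * f y i) = 0 := by
        intro i
        rw [← Finset.mul_sum, h'.mean_zero i, mul_zero]
      simp only [this]
      simp
    have h1 : ∑ x, ∑ y, w x * v y = 1 := by
      rw [← Finset.sum_mul_sum, h.tot, h'.tot, one_mul]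
    simp only [key, Finset.sum_add_distrib, h2]
    simpa using h1
  · intro p i
    have : 0 ≤ (1 + e p.1 i) * (1 + f p.2 i) / ZQ (e p.1) (f p.2) :=
      div_nonneg (mul_nonneg (by linarith [h.ge p.1 i]) (by linarith [hs p.2 i])) (hZ p).le
    simp only [eMQ, mgQ]
    linarith
  · intro σ F
    have e1 := EQ_merge w e v f (fun a => F (fun i => a (σ i)))
    have e2 := EQ_merge w e v f F
    unfold EQ at e1 e2
    rw [e1, e2, ← h.sym2 h' σ (fun a b => KQ F a b)]
    refine Finset.sum_congr rfl fun x _ => ?_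
    congr 1
    refine Finset.sum_congr rfl fun y _ => ?_
    congr 1
    unfold KQ
    rw [ZQ_perm, mgQ_perm]

end Vale.Agent.P154
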