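import Vale.Agent.P154.Q4.BilinQ

/-!
# P154, general `q`: observing `k` independent, possibly different, experiments

`(W j, E j)` on `F j`, `j : Fin k`, strictly inside the simplex.  The combined experiment `(wDQ W E, eDQ E)` lives on `∀ j, F j`.
The experiment of `k + 1` pieces is the combination (`wMQ`, `eMQ`) of the experiment of the pieces `1, …, k` (first) and of the piece `0` (second),
transported along `cEQ F : (∀ j, F j) ≃ (∀ j, F j.succ) × F 0`.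
-/

namespace Vale.Agent.P154

open Finset

/-- splitting off the first coordinate -/
def cEQ {k : ℕ} (F : Fin (k + 1) → Type) : (∀ j, F j) ≃ (∀ j : Fin k, F j.succ) × F 0 :=
  (Fin.consEquiv F).symm.trans (Equiv.prodComm _ _)

theorem cEQ_apply {k : ℕ} (F : Fin (k + 1) → Type) (η : ∀ j, F j) : cEQ F η = (Fin.tail η, η 0) := rfl

variable {q : ℕ}

theorem sDQ_pos (hq : 0 < q) {k : ℕ} {F : Fin k → Type} (E : ∀ j, F j → Fin q → ℝ)
    (hs : ∀ j η i, -1 < E j η i) (η : ∀ j, F j) : 0 < sDQ E η := by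
  unfold sDQ
  apply div_pos _ (by positivity)
  haveI : Nonempty (Fin q) := ⟨⟨0, hq⟩⟩
  refine Finset.sum_pos (fun i _ => Finset.prod_pos fun j _ => ?_) Finset.univ_nonempty
  have := hs j (η j) i
  linarith

theorem sDQ_succ (hq : 0 < q) {k : ℕ} {F : Fin (k + 1) → Type} (E : ∀ j, F j → Fin q → ℝ)
    (hs : ∀ j η i, -1 < E j η i) (η : ∀ j, F j) :
    sDQ E η = sDQ (fun j : Fin k => E j.succ) (Fin.tail η)
      * ZQ (eDQ (fun j : Fin k => E j.succ) (Fin.tail η)) (E 0 (η 0)) := by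
  have hpos := sDQ_pos hq (fun j : Fin k => E j.succ) (fun j => hs j.succ) (Fin.tail η)
  set s' := sDQ (fun j : Fin k => E j.succ) (Fin.tail η) with hs'
  have hne : s' ≠ 0 := hpos.ne'
  unfold ZQ sDQ
  rw [mul_div_assoc', Finset.mul_sum]
  congr 1
  refine Finset.sum_congr rfl fun i _ => ?_
  rw [Fin.prod_univ_succ]
  have : eDQ (fun j : Fin k => E j.succ) (Fin.tail η) i
      = (∏ j : Fin k, (1 + E j.succ (η j.succ) i)) / s' - 1 := rfl
  rw [this]
  field_simp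
  ring

theorem wDQ_succ (hq : 0 < q) {k : ℕ} {F : Fin (k + 1) → Type} (W : ∀ j, F j → ℝ)
    (E : ∀ j, F j → Fin q → ℝ) (hs : ∀ j η i, -1 < E j η i) (η : ∀ j, F j) :
    wDQ W E η = wMQ (wDQ (fun j : Fin k => W j.succ) (fun j : Fin k => E j.succ))
      (eDQ (fun j : Fin k => E j.succ)) (W 0) (E 0) (cEQ F η) := by
  unfold wMQ
  rw [show wDQ W E η = (∏ j, W j (η j)) * sDQ E η from rfl, sDQ_succ hq E hs η, Fin.prod_univ_succ]
  rw [show (cEQ F η).1 = Fin.tail η from rfl, show (cEQ F η).2 = η 0 from rfl]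
  rw [show wDQ (fun j : Fin k => W j.succ) (fun j : Fin k => E j.succ) (Fin.tail η)
      = (∏ j : Fin k, W j.succ (η j.succ)) * sDQ (fun j : Fin k => E j.succ) (Fin.tail η) from rfl]
  ring

theorem eDQ_succ (hq : 0 < q) {k : ℕ} {F : Fin (k + 1) → Type}
    (E : ∀ j, F j → Fin q → ℝ) (hs : ∀ j η i, -1 < E j η i) (η : ∀ j, F j) :
    eDQ E η = eMQ (eDQ (fun j : Fin k => E j.succ)) (E 0) (cEQ F η) := by
  funext i
  unfold eMQ mgQ
  rw [show eDQ E η i = (∏ j, (1 + E j (η j) i)) / sDQ E η - 1 from rfl, sDQ_succ hq E hs η,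
    Fin.prod_univ_succ]
  rw [show (cEQ F η).1 = Fin.tail η from rfl, show (cEQ F η).2 = η 0 from rfl]
  rw [show eDQ (fun j : Fin k => E j.succ) (Fin.tail η) i
      = (∏ j : Fin k, (1 + E j.succ (η j.succ) i)) / sDQ (fun j : Fin k => E j.succ) (Fin.tail η) - 1
      from rfl]
  rw [← div_div]
  ring

theorem sDQ_zero (hq : 0 < q) {F : Fin 0 → Type} (E : ∀ j, F j → Fin q → ℝ) (η : ∀ j, F j) :
    sDQ E η = 1 := by
  have hq' : (q : ℝ) ≠ 0 := by positivity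
  unfold sDQ
  simp [hq']

theorem wDQ_zero (hq : 0 < q) {F : Fin 0 → Type} (W : ∀ j, F j → ℝ) (E : ∀ j, F j → Fin q → ℝ)
    (η : ∀ j, F j) : wDQ W E η = 1 := by
  unfold wDQ
  rw [sDQ_zero hq]
  simp

theorem eDQ_zero (hq : 0 < q) {F : Fin 0 → Type} (E : ∀ j, F j → Fin q → ℝ) (η : ∀ j, F j) :
    eDQ E η = fun _ => 0 := by
  funext i
  unfold eDQ
  rw [sDQ_zero hq]
  simp

theorem prodQ_zero (hq : 0 < q) {F : Fin 0 → Type} [∀ j, Fintype (F j)] (W : ∀ j, F j → ℝ)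
    (E : ∀ j, F j → Fin q → ℝ) : GoodQ q (wDQ W E) (eDQ E) := by
  refine ⟨?_, ?_, ?_, ?_, ?_⟩
  · intro η
    rw [wDQ_zero hq]
    exact one_pos
  · simp [wDQ_zero hq]
  · intro η
    simp [eDQ_zero hq]
  · intro η i
    rw [eDQ_zero hq]
    norm_num
  · intro σ f
    simp [eDQ_zero hq]

theorem EQ_prodQ_zero (hq : 0 < q) {F : Fin 0 → Type} [∀ j, Fintype (F j)] (W : ∀ j, F j → ℝ)
    (E : ∀ j, F j → Fin q → ℝ) (G : (Fin q → ℝ) → ℝ) : EQ (wDQ W E) (eDQ E) G = G (fun _ => 0) := by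
  unfold EQ
  simp [eDQ_zero hq, wDQ_zero hq]

/-- the experiment of `k + 1` pieces as a transported combination -/
theorem prodQ_succ_eq (hq : 0 < q) {k : ℕ} {F : Fin (k + 1) → Type} (W : ∀ j, F j → ℝ)
    (E : ∀ j, F j → Fin q → ℝ) (hs : ∀ j η i, -1 < E j η i) :
    wDQ W E = (fun η => wMQ (wDQ (fun j : Fin k => W j.succ) (fun j : Fin k => E j.succ))
      (eDQ (fun j : Fin k => E j.succ)) (W 0) (E 0) (cEQ F η)) ∧
    eDQ E = (fun η => eMQ (eDQ (fun j : Fin k => E j.succ)) (E 0) (cEQ F η)) :=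
  ⟨funext (wDQ_succ hq W E hs), funext (eDQ_succ hq E hs)⟩

theorem prodQ_good (hq : 0 < q) : ∀ (k : ℕ) (F : Fin k → Type) [∀ j, Fintype (F j)] (W : ∀ j, F j → ℝ)
    (E : ∀ j, F j → Fin q → ℝ), (∀ j, GoodQ q (W j) (E j)) → (∀ j η i, -1 < E j η i) →
    GoodQ q (wDQ W E) (eDQ E) := by
  intro k
  induction k with
  | zero =>
    intro F _ W E _ _
    exact prodQ_zero hq W E
  | succ k ih =>
    intro F _ W E h hs
    have g := ih (fun j => F j.succ) (fun j => W j.succ) (fun j => E j.succ)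
      (fun j => h j.succ) (fun j => hs j.succ)
    obtain ⟨hw, he⟩ := prodQ_succ_eq hq W E hs
    rw [hw, he]
    exact GoodQ.of_equiv (cEQ F) (GoodQ.merge hq g (h 0) (hs 0))

/-- expectation in the experiment of `k + 1` pieces -/
theorem EQ_prodQ_succ (hq : 0 < q) {k : ℕ} {F : Fin (k + 1) → Type} [∀ j, Fintype (F j)]
    (W : ∀ j, F j → ℝ) (E : ∀ j, F j → Fin q → ℝ) (hs : ∀ j η i, -1 < E j η i)
    (G : (Fin q → ℝ) → ℝ) :
    EQ (wDQ W E) (eDQ E) G =
      EQ (wMQ (wDQ (fun j : Fin k => W j.succ) (fun j : Fin k => E j.succ))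
        (eDQ (fun j : Fin k => E j.succ)) (W 0) (E 0)) (eMQ (eDQ (fun j : Fin k => E j.succ)) (E 0)) G := by
  obtain ⟨hw, he⟩ := prodQ_succ_eq hq W E hs
  rw [hw, he]
  exact EQ_equiv (cEQ F) _ _ G

end Vale.Agent.P154
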