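import Vale.Agent.P154.Q4.Final4
import Vale.Agent.P154.KSQ.Final

/-!
# P154, four colours, `lam ≥ 0`: the threshold statement on both tree models, from the pointwise inequalities
-/

namespace Vale.Agent.P154

open Filter Topology

theorem four_threshold {k c0 k' c0' : ℝ} {p1 p2 c1 c2 p1' p2' c1' c2' : (Fin 4 → ℝ) → ℝ}
    (P : Pt4 (3 / 5) k c0 p1 p2 c1 c2) (hk0 : 0 ≤ k) (hk : k ≤ 2) (hc : 0 < c0) (hc1 : c0 ≤ 1 / 3)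
    (PB : Pt4B (5 / 7) k' c0' p1' p2' c1' c2') (hk0' : 0 ≤ k') (hk' : k' ≤ 2) (hc' : 0 < c0') :
    (∀ (d : ℕ) (lam : ℝ), 2 ≤ d → 0 ≤ lam → lam ≤ 1 →
      (1 < (d : ℝ) * lam ^ 2 → ∃ c : ℝ, 0 < c ∧ ∀ n, c ≤ aTV 4 d lam n) ∧
      ((d : ℝ) * lam ^ 2 ≤ 1 → Tendsto (fun n => aTV 4 d lam n) atTop (𝓝 0))) ∧
    (∀ (d lam : ℝ), 0 < d → 0 ≤ lam → lam ≤ 1 →
      (∀ n, (∀ T, 0 ≤ probT d n T) ∧ HasSum (probT d n) 1) ∧
      (∀ n, Summable (fun T : GT n => probT d n T * aT 4 lam n T)) ∧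
      (1 < d * lam ^ 2 → ∃ c : ℝ, 0 < c ∧ ∀ n, c ≤ aGW 4 d lam n) ∧
      ((d ≤ 1 ∨ 25 / 9 ≤ d) → d * lam ^ 2 ≤ 1 →
        Tendsto (fun n => aGW 4 d lam n) atTop (𝓝 0))) := by
  refine ⟨fun d lam hd h0 h1 => ⟨fun h2 => regQ_rec_all (by norm_num) d lam h0 h1 h2, fun h2 =>
    four_regular P hk0 hk hc hc1 PB hk0' hk' hc' d lam hd h0 h2⟩, fun d lam hd h0 h1 => ?_⟩
  have hp := potts4_nonneg lam h0 h1
  refine ⟨fun n => ⟨probT_nonneg d hd.le n, probT_hasSum d hd.le n⟩, fun n => ?_,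
    fun h2 => gwQ_rec_all (by norm_num) d lam hd h0 h1 h2, fun h h2 =>
    four_poisson P hk0 hk hc hc1 d lam hd h h0 h1 h2⟩
  exact summable_probT_mul d hd.le n _ (aT_nonneg' 4 lam hp n) (aT_le_one 4 (by norm_num) lam hp n)

end Vale.Agent.P154
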