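import Vale.Agent.P154.Q4.ProdQ

/-!
# P154, general `q`: the experiment attached to a fixed tree

`evQ q lam n T η i = q * postT q lam n T i η - 1`.
* base: `ConfT q 0 T = Fin q`, `margT = 1/q`, `evQ η i = q * 1{η = i} - 1`.
* `likT n T i η = margT n T η * (1 + evQ n T η i)`; message of a child: `∑ j, potts q lam i j * likT n t j ξ = margT n t ξ * (1 + lam * evQ n t ξ i)`.
* hence `margT (n+1) T = wDQ (fun j => margT n (T.2 j)) (fun j ξ i => lam * evQ n (T.2 j) ξ i)`, `evQ (n+1) T = eDQ (...)`.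
* `treeQ_good`: induction on `n`.
-/

namespace Vale.Agent.P154

open Finset

variable {q : ℕ}

theorem likQ_zero (lam : ℝ) (T : GT 0) (i η : Fin q) :
    likT q lam 0 T i η = if η = i then 1 else 0 := rfl

theorem margQ_zero (hq : 0 < q) (lam : ℝ) (T : GT 0) (η : Fin q) : margT q lam 0 T η = 1 / q := by
  unfold margT
  simp only [likQ_zero]
  simp

theorem evQ_zero (hq : 0 < q) (lam : ℝ) (T : GT 0) (η i : Fin q) :
    evQ q lam 0 T η i = q * (if η = i then 1 else 0) - 1 := by
  have hq' : (q : ℝ) ≠ 0 := by positivity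
  unfold evQ postT
  rw [margQ_zero hq, likQ_zero]
  field_simp

theorem baseQ_good (hq : 0 < q) (lam : ℝ) (T : GT 0) : GoodQ q (margT q lam 0 T) (evQ q lam 0 T) := by
  have hq' : (q : ℝ) ≠ 0 := by positivity
  refine ⟨?_, ?_, ?_, ?_, ?_⟩
  · intro η
    have h := margQ_zero hq lam T η
    rw [h]
    positivity
  · have : ∑ η : Fin q, margT q lam 0 T η = 1 := by
      simp only [margQ_zero hq]
      simp [hq']
    exact this
  · intro η
    have h : ∀ η : Fin q, ∑ i, evQ q lam 0 T η i = 0 := by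
      intro η
      simp only [evQ_zero hq]
      rw [Finset.sum_sub_distrib, ← Finset.mul_sum]
      simp
    exact h η
  · intro η i
    have h := evQ_zero hq lam T η i
    rw [h]
    split_ifs
    · have : (1 : ℝ) ≤ q := by exact_mod_cast hq
      linarith
    · norm_num
  · intro σ f
    have h : ∑ η : Fin q, margT q lam 0 T η * f (fun i => evQ q lam 0 T η (σ i)) =
        ∑ η : Fin q, margT q lam 0 T η * f (evQ q lam 0 T η) := by
      rw [← Equiv.sum_comp σ (fun η : Fin q => margT q lam 0 T η * f (fun i => evQ q lam 0 T η (σ i)))]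
      refine Finset.sum_congr rfl fun η _ => ?_
      rw [margQ_zero hq, margQ_zero hq]
      congr 2
      funext i
      rw [evQ_zero hq, evQ_zero hq]
      simp
    exact h

theorem likQ_eq (hq : 0 < q) (lam : ℝ) (n : ℕ) (T : GT n) (η : ConfT q n T)
    (hp : 0 < margT q lam n T η) (i : Fin q) :
    likT q lam n T i η = margT q lam n T η * (1 + evQ q lam n T η i) := by
  have hq' : (q : ℝ) ≠ 0 := by positivity
  have hp' := hp.ne'
  unfold evQ postT
  field_simp
  ring

theorem msgQ_eq (hq : 0 < q) (lam : ℝ) (n : ℕ) (T : GT n) (η : ConfT q n T)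
    (hp : 0 < margT q lam n T η) (i : Fin q) :
    ∑ j : Fin q, potts q lam i j * likT q lam n T j η =
      margT q lam n T η * (1 + lam * evQ q lam n T η i) := by
  have hq' : (q : ℝ) ≠ 0 := by positivity
  have hl := likQ_eq hq lam n T η hp i
  have h2 : margT q lam n T η * (1 + lam * evQ q lam n T η i) =
      lam * likT q lam n T i η + (1 - lam) * margT q lam n T η := by
    rw [hl]; ring
  rw [h2]
  unfold potts margT
  simp only [add_mul, Finset.sum_add_distrib]
  congr 1
  · simp [mul_assoc]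
  · rw [Finset.mul_sum]
    refine Finset.sum_congr rfl fun j _ => ?_
    ring

theorem likQ_succ (hq : 0 < q) (lam : ℝ) (n : ℕ) (T : GT (n + 1))
    (h : ∀ j ξ, 0 < margT q lam n (T.2 j) ξ) (η : ConfT q (n + 1) T) (i : Fin q) :
    likT q lam (n + 1) T i η =
      (∏ k : Fin T.1, margT q lam n (T.2 k) (η k)) *
        ∏ k : Fin T.1, (1 + lam * evQ q lam n (T.2 k) (η k) i) := by
  have : likT q lam (n + 1) T i η =
      ∏ k : Fin T.1, ∑ j : Fin q, potts q lam i j * likT q lam n (T.2 k) j (η k) := rfl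
  rw [this, ← Finset.prod_mul_distrib]
  exact Finset.prod_congr rfl (fun k _ => msgQ_eq hq lam n (T.2 k) (η k) (h k (η k)) i)

theorem margQ_succ (hq : 0 < q) (lam : ℝ) (n : ℕ) (T : GT (n + 1))
    (h : ∀ j ξ, 0 < margT q lam n (T.2 j) ξ) :
    margT q lam (n + 1) T =
      wDQ (fun j => margT q lam n (T.2 j)) (fun j ξ i => lam * evQ q lam n (T.2 j) ξ i) := by
  funext η
  have : margT q lam (n + 1) T η =
      ∑ i : Fin q, (1 / (q : ℝ)) * likT q lam (n + 1) T i η := rfl
  rw [this]
  simp only [likQ_succ hq lam n T h, wDQ, sDQ]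
  rw [Finset.sum_div, Finset.mul_sum]
  refine Finset.sum_congr rfl fun i _ => ?_
  ring

theorem evQ_succ (hq : 0 < q) (lam : ℝ) (n : ℕ) (T : GT (n + 1))
    (h : ∀ j ξ, 0 < margT q lam n (T.2 j) ξ)
    (hs : ∀ (j : Fin T.1) (ξ : ConfT q n (T.2 j)) (i : Fin q), -1 < lam * evQ q lam n (T.2 j) ξ i) :
    evQ q lam (n + 1) T = eDQ (fun j ξ i => lam * evQ q lam n (T.2 j) ξ i) := by
  funext η i
  have hq' : (q : ℝ) ≠ 0 := by positivity
  have hS := (sDQ_pos hq (fun (j : Fin T.1) ξ i => lam * evQ q lam n (T.2 j) ξ i) hs η).ne'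
  have hP : (∏ k : Fin T.1, margT q lam n (T.2 k) (η k)) ≠ 0 :=
    (Finset.prod_pos (fun k _ => h k (η k))).ne'
  have : evQ q lam (n + 1) T η i =
      q * ((1 / (q : ℝ)) * likT q lam (n + 1) T i η / margT q lam (n + 1) T η) - 1 := rfl
  rw [this, margQ_succ hq lam n T h, likQ_succ hq lam n T h]
  simp only [wDQ, eDQ]
  field_simp

theorem treeQ_good (hq : 0 < q) (lam : ℝ) (h0 : 0 ≤ lam) (h1 : lam < 1) (n : ℕ) (T : GT n) :
    GoodQ q (margT q lam n T) (evQ q lam n T) := by
  induction n with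
  | zero => exact baseQ_good hq lam T
  | succ n ih =>
    have hg : ∀ j, GoodQ q (margT q lam n (T.2 j)) (evQ q lam n (T.2 j)) := fun j => ih (T.2 j)
    have hs : ∀ (j : Fin T.1) (ξ : ConfT q n (T.2 j)) (i : Fin q),
        -1 < lam * evQ q lam n (T.2 j) ξ i := fun j ξ i => (hg j).scale_strict lam h0 h1 ξ i
    rw [margQ_succ hq lam n T (fun j ξ => (hg j).pos ξ), evQ_succ hq lam n T (fun j ξ => (hg j).pos ξ) hs]
    exact prodQ_good hq T.1 (fun j => ConfT q n (T.2 j)) (fun j => margT q lam n (T.2 j))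
      (fun j ξ i => lam * evQ q lam n (T.2 j) ξ i) (fun j => (hg j).scale lam h0 h1.le) hs

theorem aT_eqQ (hq : 0 < q) (lam : ℝ) (n : ℕ) (T : GT n) :
    aT q lam n T = ∑ η, margT q lam n T η * ((1 / (2 * (q : ℝ))) * ∑ i, |evQ q lam n T η i|) := by
  have hq' : (0 : ℝ) < q := by positivity
  unfold aT
  refine Finset.sum_congr rfl fun η _ => ?_
  have key : ∀ i, |evQ q lam n T η i| = q * |postT q lam n T i η - 1 / (q : ℝ)| := by
    intro i
    unfold evQ
    have h3 : q * postT q lam n T i η - 1 = q * (postT q lam n T i η - 1 / (q : ℝ)) := by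
      field_simp
    rw [h3, abs_mul, abs_of_pos hq']
  simp only [key]
  rw [← Finset.mul_sum]
  set S := ∑ i, |postT q lam n T i η - 1 / (q : ℝ)|
  have hq'' := hq'.ne'
  field_simp

end Vale.Agent.P154
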